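import Crest.Agent.Lib.PottsTree.Lat3.CoverR

/-!
# The cover of `q = 3`, `λ < 0`: the cells and their closers

Generated.  For each regular degree `4 ≤ b ≤ 34` and each cell `[d1, d2]` of Poisson degrees covering
`[4, 343/10]`: a `Cell` instance and the theorem which closes the case from one bound at one level.
-/

set_option linter.unusedVariables false
set_option linter.unusedSimpArgs false

noncomputable section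

namespace Crest.Agent.PottsTree.CertQ3.T48.Cover

open Filter
open Crest.Agent.PottsTree
open Crest.ProbabilityR.Broadcast

theorem cellG0 : Cell (2479 / 5000) (1 / 2) (((9411 : ℕ) : ℝ) / ((100000 : ℕ) : ℝ)) (331733 / 500000) (266783 / 250000) (27233 / 125000) (3867093 / 1000000) (99599 / 20000) := by
  constructor <;> norm_num [psi]

/-- Poisson degrees in `[4.0, 4.068]` -/
theorem closeG0 {l0 : ℕ}
    (h0 : Pot (A 3) (gwL 3 (-((1 : ℕ) : ℝ) / ((2 : ℕ) : ℝ)) (((4068 : ℕ) : ℝ) / ((1000 : ℕ) : ℝ)) l0) ≤ 2 * (((9411 : ℕ) : ℝ) / ((100000 : ℕ) : ℝ)))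
    {d : ℝ} (hd : (((4000 : ℕ) : ℝ) / ((1000 : ℕ) : ℝ)) ≤ d) (hd' : d ≤ (((4068 : ℕ) : ℝ) / ((1000 : ℕ) : ℝ))) :
    Tendsto (gwAdvantage 3 (-(1 / Real.sqrt d)) d) atTop (nhds 0) := by
  rw [neg_div] at h0
  exact gw_closed (by norm_num) cellG0 (by norm_num) (by norm_num) (by norm_num) (by norm_num)
    (by norm_num) h0 hd hd'

theorem cellG1 : Cell (1229 / 2500) (4959 / 10000) (((9529 : ℕ) : ℝ) / ((100000 : ℕ) : ℝ)) (132179 / 200000) (534011 / 500000) (55291 / 250000) (3851467 / 1000000) (2472751 / 500000) := by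
  constructor <;> norm_num [psi]

/-- Poisson degrees in `[4.068, 4.137]` -/
theorem closeG1 {l0 : ℕ}
    (h0 : Pot (A 3) (gwL 3 (-((4959 : ℕ) : ℝ) / ((10000 : ℕ) : ℝ)) (((4137 : ℕ) : ℝ) / ((1000 : ℕ) : ℝ)) l0) ≤ 2 * (((9529 : ℕ) : ℝ) / ((100000 : ℕ) : ℝ)))
    {d : ℝ} (hd : (((4068 : ℕ) : ℝ) / ((1000 : ℕ) : ℝ)) ≤ d) (hd' : d ≤ (((4137 : ℕ) : ℝ) / ((1000 : ℕ) : ℝ))) :
    Tendsto (gwAdvantage 3 (-(1 / Real.sqrt d)) d) atTop (nhds 0) := by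
  rw [neg_div] at h0
  exact gw_closed (by norm_num) cellG1 (by norm_num) (by norm_num) (by norm_num) (by norm_num)
    (by norm_num) h0 hd hd'

theorem cellG2 : Cell (39 / 80) (4917 / 10000) (((9651 : ℕ) : ℝ) / ((100000 : ℕ) : ℝ)) (82283 / 125000) (1068943 / 1000000) (56139 / 250000) (479473 / 125000) (2455423 / 500000) := by
  constructor <;> norm_num [psi]

/-- Poisson degrees in `[4.137, 4.207]` -/
theorem closeG2 {l0 : ℕ}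
    (h0 : Pot (A 3) (gwL 3 (-((4917 : ℕ) : ℝ) / ((10000 : ℕ) : ℝ)) (((4207 : ℕ) : ℝ) / ((1000 : ℕ) : ℝ)) l0) ≤ 2 * (((9651 : ℕ) : ℝ) / ((100000 : ℕ) : ℝ)))
    {d : ℝ} (hd : (((4137 : ℕ) : ℝ) / ((1000 : ℕ) : ℝ)) ≤ d) (hd' : d ≤ (((4207 : ℕ) : ℝ) / ((1000 : ℕ) : ℝ))) :
    Tendsto (gwAdvantage 3 (-(1 / Real.sqrt d)) d) atTop (nhds 0) := by
  rw [neg_div] at h0
  exact gw_closed (by norm_num) cellG2 (by norm_num) (by norm_num) (by norm_num) (by norm_num)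
    (by norm_num) h0 hd hd'

theorem cellG3 : Cell (2417 / 5000) (1219 / 2500) (((9772 : ℕ) : ℝ) / ((100000 : ℕ) : ℝ)) (655677 / 1000000) (1069857 / 1000000) (7123 / 31250) (955221 / 250000) (2438823 / 500000) := by
  constructor <;> norm_num [psi]

/-- Poisson degrees in `[4.207, 4.279]` -/
theorem closeG3 {l0 : ℕ}
    (h0 : Pot (A 3) (gwL 3 (-((1219 : ℕ) : ℝ) / ((2500 : ℕ) : ℝ)) (((4279 : ℕ) : ℝ) / ((1000 : ℕ) : ℝ)) l0) ≤ 2 * (((9772 : ℕ) : ℝ) / ((100000 : ℕ) : ℝ)))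
    {d : ℝ} (hd : (((4207 : ℕ) : ℝ) / ((1000 : ℕ) : ℝ)) ≤ d) (hd' : d ≤ (((4279 : ℕ) : ℝ) / ((1000 : ℕ) : ℝ))) :
    Tendsto (gwAdvantage 3 (-(1 / Real.sqrt d)) d) atTop (nhds 0) := by
  rw [neg_div] at h0
  exact gw_closed (by norm_num) cellG3 (by norm_num) (by norm_num) (by norm_num) (by norm_num)
    (by norm_num) h0 hd hd'

theorem cellG4 : Cell (4793 / 10000) (967 / 2000) (((9895 : ℕ) : ℝ) / ((100000 : ℕ) : ℝ)) (163267 / 250000) (267697 / 250000) (14461 / 62500) (1903187 / 500000) (605633 / 125000) := by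
  constructor <;> norm_num [psi]

/-- Poisson degrees in `[4.279, 4.352]` -/
theorem closeG4 {l0 : ℕ}
    (h0 : Pot (A 3) (gwL 3 (-((967 : ℕ) : ℝ) / ((2000 : ℕ) : ℝ)) (((4352 : ℕ) : ℝ) / ((1000 : ℕ) : ℝ)) l0) ≤ 2 * (((9895 : ℕ) : ℝ) / ((100000 : ℕ) : ℝ)))
    {d : ℝ} (hd : (((4279 : ℕ) : ℝ) / ((1000 : ℕ) : ℝ)) ≤ d) (hd' : d ≤ (((4352 : ℕ) : ℝ) / ((1000 : ℕ) : ℝ))) :
    Tendsto (gwAdvantage 3 (-(1 / Real.sqrt d)) d) atTop (nhds 0) := by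
  rw [neg_div] at h0
  exact gw_closed (by norm_num) cellG4 (by norm_num) (by norm_num) (by norm_num) (by norm_num)
    (by norm_num) h0 hd hd'

theorem cellG5 : Cell (2373 / 5000) (2397 / 5000) (((10018 : ℕ) : ℝ) / ((100000 : ℕ) : ℝ)) (650491 / 1000000) (1071721 / 1000000) (234901 / 1000000) (151689 / 40000) (2406509 / 500000) := by
  constructor <;> norm_num [psi]

/-- Poisson degrees in `[4.352, 4.439]` -/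
theorem closeG5 {l0 : ℕ}
    (h0 : Pot (A 3) (gwL 3 (-((2397 : ℕ) : ℝ) / ((5000 : ℕ) : ℝ)) (((4439 : ℕ) : ℝ) / ((1000 : ℕ) : ℝ)) l0) ≤ 2 * (((10018 : ℕ) : ℝ) / ((100000 : ℕ) : ℝ)))
    {d : ℝ} (hd : (((4352 : ℕ) : ℝ) / ((1000 : ℕ) : ℝ)) ≤ d) (hd' : d ≤ (((4439 : ℕ) : ℝ) / ((1000 : ℕ) : ℝ))) :
    Tendsto (gwAdvantage 3 (-(1 / Real.sqrt d)) d) atTop (nhds 0) := by
  rw [neg_div] at h0
  exact gw_closed (by norm_num) cellG5 (by norm_num) (by norm_num) (by norm_num) (by norm_num)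
    (by norm_num) h0 hd hd'

theorem cellG6 : Cell (4699 / 10000) (4747 / 10000) (((10163 : ℕ) : ℝ) / ((100000 : ℕ) : ℝ)) (40467 / 62500) (1072821 / 1000000) (238967 / 1000000) (3776431 / 1000000) (95541 / 20000) := by
  constructor <;> norm_num [psi]

/-- Poisson degrees in `[4.439, 4.528]` -/
theorem closeG6 {l0 : ℕ}
    (h0 : Pot (A 3) (gwL 3 (-((4747 : ℕ) : ℝ) / ((10000 : ℕ) : ℝ)) (((4528 : ℕ) : ℝ) / ((1000 : ℕ) : ℝ)) l0) ≤ 2 * (((10163 : ℕ) : ℝ) / ((100000 : ℕ) : ℝ)))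
    {d : ℝ} (hd : (((4439 : ℕ) : ℝ) / ((1000 : ℕ) : ℝ)) ≤ d) (hd' : d ≤ (((4528 : ℕ) : ℝ) / ((1000 : ℕ) : ℝ))) :
    Tendsto (gwAdvantage 3 (-(1 / Real.sqrt d)) d) atTop (nhds 0) := by
  rw [neg_div] at h0
  exact gw_closed (by norm_num) cellG6 (by norm_num) (by norm_num) (by norm_num) (by norm_num)
    (by norm_num) h0 hd hd'

theorem cellG7 : Cell (1163 / 2500) (47 / 100) (((10310 : ℕ) : ℝ) / ((100000 : ℕ) : ℝ)) (128889 / 200000) (1073939 / 1000000) (30387 / 125000) (940269 / 250000) (2370909 / 500000) := by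
  constructor <;> norm_num [psi]

/-- Poisson degrees in `[4.528, 4.619]` -/
theorem closeG7 {l0 : ℕ}
    (h0 : Pot (A 3) (gwL 3 (-((47 : ℕ) : ℝ) / ((100 : ℕ) : ℝ)) (((4619 : ℕ) : ℝ) / ((1000 : ℕ) : ℝ)) l0) ≤ 2 * (((10310 : ℕ) : ℝ) / ((100000 : ℕ) : ℝ)))
    {d : ℝ} (hd : (((4528 : ℕ) : ℝ) / ((1000 : ℕ) : ℝ)) ≤ d) (hd' : d ≤ (((4619 : ℕ) : ℝ) / ((1000 : ℕ) : ℝ))) :
    Tendsto (gwAdvantage 3 (-(1 / Real.sqrt d)) d) atTop (nhds 0) := by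
  rw [neg_div] at h0
  exact gw_closed (by norm_num) cellG7 (by norm_num) (by norm_num) (by norm_num) (by norm_num)
    (by norm_num) h0 hd hd'

theorem cellG8 : Cell (4607 / 10000) (4653 / 10000) (((10461 : ℕ) : ℝ) / ((100000 : ℕ) : ℝ)) (8017 / 12500) (1075089 / 1000000) (247311 / 1000000) (149849 / 40000) (1176841 / 250000) := by
  constructor <;> norm_num [psi]

/-- Poisson degrees in `[4.619, 4.711]` -/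
theorem closeG8 {l0 : ℕ}
    (h0 : Pot (A 3) (gwL 3 (-((4653 : ℕ) : ℝ) / ((10000 : ℕ) : ℝ)) (((4711 : ℕ) : ℝ) / ((1000 : ℕ) : ℝ)) l0) ≤ 2 * (((10461 : ℕ) : ℝ) / ((100000 : ℕ) : ℝ)))
    {d : ℝ} (hd : (((4619 : ℕ) : ℝ) / ((1000 : ℕ) : ℝ)) ≤ d) (hd' : d ≤ (((4711 : ℕ) : ℝ) / ((1000 : ℕ) : ℝ))) :
    Tendsto (gwAdvantage 3 (-(1 / Real.sqrt d)) d) atTop (nhds 0) := by
  rw [neg_div] at h0
  exact gw_closed (by norm_num) cellG8 (by norm_num) (by norm_num) (by norm_num) (by norm_num)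
    (by norm_num) h0 hd hd'

theorem cellG9 : Cell (4561 / 10000) (288 / 625) (((10607 : ℕ) : ℝ) / ((100000 : ℕ) : ℝ)) (159603 / 250000) (1076203 / 1000000) (251433 / 1000000) (746483 / 200000) (4675013 / 1000000) := by
  constructor <;> norm_num [psi]

/-- Poisson degrees in `[4.711, 4.805]` -/
theorem closeG9 {l0 : ℕ}
    (h0 : Pot (A 3) (gwL 3 (-((288 : ℕ) : ℝ) / ((625 : ℕ) : ℝ)) (((4805 : ℕ) : ℝ) / ((1000 : ℕ) : ℝ)) l0) ≤ 2 * (((10607 : ℕ) : ℝ) / ((100000 : ℕ) : ℝ)))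
    {d : ℝ} (hd : (((4711 : ℕ) : ℝ) / ((1000 : ℕ) : ℝ)) ≤ d) (hd' : d ≤ (((4805 : ℕ) : ℝ) / ((1000 : ℕ) : ℝ))) :
    Tendsto (gwAdvantage 3 (-(1 / Real.sqrt d)) d) atTop (nhds 0) := by
  rw [neg_div] at h0
  exact gw_closed (by norm_num) cellG9 (by norm_num) (by norm_num) (by norm_num) (by norm_num)
    (by norm_num) h0 hd hd'

theorem cellG10 : Cell (4517 / 10000) (2281 / 5000) (((10760 : ℕ) : ℝ) / ((100000 : ℕ) : ℝ)) (158837 / 250000) (269343 / 250000) (255713 / 1000000) (3718731 / 1000000) (928529 / 200000) := by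
  constructor <;> norm_num [psi]

/-- Poisson degrees in `[4.805, 4.901]` -/
theorem closeG10 {l0 : ℕ}
    (h0 : Pot (A 3) (gwL 3 (-((2281 : ℕ) : ℝ) / ((5000 : ℕ) : ℝ)) (((4901 : ℕ) : ℝ) / ((1000 : ℕ) : ℝ)) l0) ≤ 2 * (((10760 : ℕ) : ℝ) / ((100000 : ℕ) : ℝ)))
    {d : ℝ} (hd : (((4805 : ℕ) : ℝ) / ((1000 : ℕ) : ℝ)) ≤ d) (hd' : d ≤ (((4901 : ℕ) : ℝ) / ((1000 : ℕ) : ℝ))) :
    Tendsto (gwAdvantage 3 (-(1 / Real.sqrt d)) d) atTop (nhds 0) := by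
  rw [neg_div] at h0
  exact gw_closed (by norm_num) cellG10 (by norm_num) (by norm_num) (by norm_num) (by norm_num)
    (by norm_num) h0 hd hd'

theorem cellG11 : Cell (559 / 1250) (2259 / 5000) (((10907 : ℕ) : ℝ) / ((100000 : ℕ) : ℝ)) (158111 / 250000) (1078497 / 1000000) (8121 / 31250) (3705971 / 1000000) (2306119 / 500000) := by
  constructor <;> norm_num [psi]

/-- Poisson degrees in `[4.901, 4.999]` -/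
theorem closeG11 {l0 : ℕ}
    (h0 : Pot (A 3) (gwL 3 (-((2259 : ℕ) : ℝ) / ((5000 : ℕ) : ℝ)) (((4999 : ℕ) : ℝ) / ((1000 : ℕ) : ℝ)) l0) ≤ 2 * (((10907 : ℕ) : ℝ) / ((100000 : ℕ) : ℝ)))
    {d : ℝ} (hd : (((4901 : ℕ) : ℝ) / ((1000 : ℕ) : ℝ)) ≤ d) (hd' : d ≤ (((4999 : ℕ) : ℝ) / ((1000 : ℕ) : ℝ))) :
    Tendsto (gwAdvantage 3 (-(1 / Real.sqrt d)) d) atTop (nhds 0) := by
  rw [neg_div] at h0
  exact gw_closed (by norm_num) cellG11 (by norm_num) (by norm_num) (by norm_num) (by norm_num)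
    (by norm_num) h0 hd hd'

theorem cellG12 : Cell (1107 / 2500) (4473 / 10000) (((11062 : ℕ) : ℝ) / ((100000 : ℕ) : ℝ)) (629401 / 1000000) (539843 / 500000) (264229 / 1000000) (738679 / 200000) (4581821 / 1000000) := by
  constructor <;> norm_num [psi]

/-- Poisson degrees in `[4.999, 5.099]` -/
theorem closeG12 {l0 : ℕ}
    (h0 : Pot (A 3) (gwL 3 (-((4473 : ℕ) : ℝ) / ((10000 : ℕ) : ℝ)) (((5099 : ℕ) : ℝ) / ((1000 : ℕ) : ℝ)) l0) ≤ 2 * (((11062 : ℕ) : ℝ) / ((100000 : ℕ) : ℝ)))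
    {d : ℝ} (hd : (((4999 : ℕ) : ℝ) / ((1000 : ℕ) : ℝ)) ≤ d) (hd' : d ≤ (((5099 : ℕ) : ℝ) / ((1000 : ℕ) : ℝ))) :
    Tendsto (gwAdvantage 3 (-(1 / Real.sqrt d)) d) atTop (nhds 0) := by
  rw [neg_div] at h0
  exact gw_closed (by norm_num) cellG12 (by norm_num) (by norm_num) (by norm_num) (by norm_num)
    (by norm_num) h0 hd hd'

theorem cellG13 : Cell (274 / 625) (4429 / 10000) (((11215 : ℕ) : ℝ) / ((100000 : ℕ) : ℝ)) (626433 / 1000000) (1080861 / 1000000) (67137 / 250000) (460177 / 125000) (284539 / 62500) := by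
  constructor <;> norm_num [psi]

/-- Poisson degrees in `[5.099, 5.201]` -/
theorem closeG13 {l0 : ℕ}
    (h0 : Pot (A 3) (gwL 3 (-((4429 : ℕ) : ℝ) / ((10000 : ℕ) : ℝ)) (((5201 : ℕ) : ℝ) / ((1000 : ℕ) : ℝ)) l0) ≤ 2 * (((11215 : ℕ) : ℝ) / ((100000 : ℕ) : ℝ)))
    {d : ℝ} (hd : (((5099 : ℕ) : ℝ) / ((1000 : ℕ) : ℝ)) ≤ d) (hd' : d ≤ (((5201 : ℕ) : ℝ) / ((1000 : ℕ) : ℝ))) :
    Tendsto (gwAdvantage 3 (-(1 / Real.sqrt d)) d) atTop (nhds 0) := by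
  rw [neg_div] at h0
  exact gw_closed (by norm_num) cellG13 (by norm_num) (by norm_num) (by norm_num) (by norm_num)
    (by norm_num) h0 hd hd'

theorem cellG14 : Cell (4341 / 10000) (877 / 2000) (((11371 : ℕ) : ℝ) / ((100000 : ℕ) : ℝ)) (155859 / 250000) (1082061 / 1000000) (272941 / 1000000) (3669803 / 1000000) (4524007 / 1000000) := by
  constructor <;> norm_num [psi]

/-- Poisson degrees in `[5.201, 5.305]` -/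
theorem closeG14 {l0 : ℕ}
    (h0 : Pot (A 3) (gwL 3 (-((877 : ℕ) : ℝ) / ((2000 : ℕ) : ℝ)) (((5305 : ℕ) : ℝ) / ((1000 : ℕ) : ℝ)) l0) ≤ 2 * (((11371 : ℕ) : ℝ) / ((100000 : ℕ) : ℝ)))
    {d : ℝ} (hd : (((5201 : ℕ) : ℝ) / ((1000 : ℕ) : ℝ)) ≤ d) (hd' : d ≤ (((5305 : ℕ) : ℝ) / ((1000 : ℕ) : ℝ))) :
    Tendsto (gwAdvantage 3 (-(1 / Real.sqrt d)) d) atTop (nhds 0) := by
  rw [neg_div] at h0
  exact gw_closed (by norm_num) cellG14 (by norm_num) (by norm_num) (by norm_num) (by norm_num)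
    (by norm_num) h0 hd hd'

theorem cellG15 : Cell (2149 / 5000) (2171 / 5000) (((11527 : ℕ) : ℝ) / ((100000 : ℕ) : ℝ)) (124093 / 200000) (1083263 / 1000000) (277349 / 1000000) (1829433 / 500000) (4496607 / 1000000) := by
  constructor <;> norm_num [psi]

/-- Poisson degrees in `[5.305, 5.411]` -/
theorem closeG15 {l0 : ℕ}
    (h0 : Pot (A 3) (gwL 3 (-((2171 : ℕ) : ℝ) / ((5000 : ℕ) : ℝ)) (((5411 : ℕ) : ℝ) / ((1000 : ℕ) : ℝ)) l0) ≤ 2 * (((11527 : ℕ) : ℝ) / ((100000 : ℕ) : ℝ)))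
    {d : ℝ} (hd : (((5305 : ℕ) : ℝ) / ((1000 : ℕ) : ℝ)) ≤ d) (hd' : d ≤ (((5411 : ℕ) : ℝ) / ((1000 : ℕ) : ℝ))) :
    Tendsto (gwAdvantage 3 (-(1 / Real.sqrt d)) d) atTop (nhds 0) := by
  rw [neg_div] at h0
  exact gw_closed (by norm_num) cellG15 (by norm_num) (by norm_num) (by norm_num) (by norm_num)
    (by norm_num) h0 hd hd'

theorem cellG16 : Cell (1063 / 2500) (4299 / 10000) (((11684 : ℕ) : ℝ) / ((100000 : ℕ) : ℝ)) (77189 / 125000) (43379 / 40000) (281837 / 1000000) (145929 / 40000) (4469679 / 1000000) := by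
  constructor <;> norm_num [psi]

/-- Poisson degrees in `[5.411, 5.53]` -/
theorem closeG16 {l0 : ℕ}
    (h0 : Pot (A 3) (gwL 3 (-((4299 : ℕ) : ℝ) / ((10000 : ℕ) : ℝ)) (((5530 : ℕ) : ℝ) / ((1000 : ℕ) : ℝ)) l0) ≤ 2 * (((11684 : ℕ) : ℝ) / ((100000 : ℕ) : ℝ)))
    {d : ℝ} (hd : (((5411 : ℕ) : ℝ) / ((1000 : ℕ) : ℝ)) ≤ d) (hd' : d ≤ (((5530 : ℕ) : ℝ) / ((1000 : ℕ) : ℝ))) :
    Tendsto (gwAdvantage 3 (-(1 / Real.sqrt d)) d) atTop (nhds 0) := by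
  rw [neg_div] at h0
  exact gw_closed (by norm_num) cellG16 (by norm_num) (by norm_num) (by norm_num) (by norm_num)
    (by norm_num) h0 hd hd'

theorem cellG17 : Cell (2103 / 5000) (4253 / 10000) (((11856 : ℕ) : ℝ) / ((100000 : ℕ) : ℝ)) (307153 / 500000) (217161 / 200000) (57341 / 200000) (454651 / 125000) (4441473 / 1000000) := by
  constructor <;> norm_num [psi]

/-- Poisson degrees in `[5.53, 5.652]` -/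
theorem closeG17 {l0 : ℕ}
    (h0 : Pot (A 3) (gwL 3 (-((4253 : ℕ) : ℝ) / ((10000 : ℕ) : ℝ)) (((5652 : ℕ) : ℝ) / ((1000 : ℕ) : ℝ)) l0) ≤ 2 * (((11856 : ℕ) : ℝ) / ((100000 : ℕ) : ℝ)))
    {d : ℝ} (hd : (((5530 : ℕ) : ℝ) / ((1000 : ℕ) : ℝ)) ≤ d) (hd' : d ≤ (((5652 : ℕ) : ℝ) / ((1000 : ℕ) : ℝ))) :
    Tendsto (gwAdvantage 3 (-(1 / Real.sqrt d)) d) atTop (nhds 0) := by
  rw [neg_div] at h0
  exact gw_closed (by norm_num) cellG17 (by norm_num) (by norm_num) (by norm_num) (by norm_num)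
    (by norm_num) h0 hd hd'

theorem cellG18 : Cell (52 / 125) (4207 / 10000) (((12032 : ℕ) : ℝ) / ((100000 : ℕ) : ℝ)) (305529 / 500000) (1087169 / 1000000) (36461 / 125000) (3626611 / 1000000) (4413871 / 1000000) := by
  constructor <;> norm_num [psi]

/-- Poisson degrees in `[5.652, 5.776]` -/
theorem closeG18 {l0 : ℕ}
    (h0 : Pot (A 3) (gwL 3 (-((4207 : ℕ) : ℝ) / ((10000 : ℕ) : ℝ)) (((5776 : ℕ) : ℝ) / ((1000 : ℕ) : ℝ)) l0) ≤ 2 * (((12032 : ℕ) : ℝ) / ((100000 : ℕ) : ℝ)))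
    {d : ℝ} (hd : (((5652 : ℕ) : ℝ) / ((1000 : ℕ) : ℝ)) ≤ d) (hd' : d ≤ (((5776 : ℕ) : ℝ) / ((1000 : ℕ) : ℝ))) :
    Tendsto (gwAdvantage 3 (-(1 / Real.sqrt d)) d) atTop (nhds 0) := by
  rw [neg_div] at h0
  exact gw_closed (by norm_num) cellG18 (by norm_num) (by norm_num) (by norm_num) (by norm_num)
    (by norm_num) h0 hd hd'

theorem cellG19 : Cell (823 / 2000) (4161 / 10000) (((12211 : ℕ) : ℝ) / ((100000 : ℕ) : ℝ)) (607793 / 1000000) (1088559 / 1000000) (296743 / 1000000) (3616349 / 1000000) (4386829 / 1000000) := by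
  constructor <;> norm_num [psi]

/-- Poisson degrees in `[5.776, 5.903]` -/
theorem closeG19 {l0 : ℕ}
    (h0 : Pot (A 3) (gwL 3 (-((4161 : ℕ) : ℝ) / ((10000 : ℕ) : ℝ)) (((5903 : ℕ) : ℝ) / ((1000 : ℕ) : ℝ)) l0) ≤ 2 * (((12211 : ℕ) : ℝ) / ((100000 : ℕ) : ℝ)))
    {d : ℝ} (hd : (((5776 : ℕ) : ℝ) / ((1000 : ℕ) : ℝ)) ≤ d) (hd' : d ≤ (((5903 : ℕ) : ℝ) / ((1000 : ℕ) : ℝ))) :
    Tendsto (gwAdvantage 3 (-(1 / Real.sqrt d)) d) atTop (nhds 0) := by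
  rw [neg_div] at h0
  exact gw_closed (by norm_num) cellG19 (by norm_num) (by norm_num) (by norm_num) (by norm_num)
    (by norm_num) h0 hd hd'

theorem cellG20 : Cell (4071 / 10000) (1029 / 2500) (((12391 : ℕ) : ℝ) / ((100000 : ℕ) : ℝ)) (604539 / 1000000) (1089959 / 1000000) (12073 / 40000) (3606747 / 1000000) (4360963 / 1000000) := by
  constructor <;> norm_num [psi]

/-- Poisson degrees in `[5.903, 6.033]` -/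
theorem closeG20 {l0 : ℕ}
    (h0 : Pot (A 3) (gwL 3 (-((1029 : ℕ) : ℝ) / ((2500 : ℕ) : ℝ)) (((6033 : ℕ) : ℝ) / ((1000 : ℕ) : ℝ)) l0) ≤ 2 * (((12391 : ℕ) : ℝ) / ((100000 : ℕ) : ℝ)))
    {d : ℝ} (hd : (((5903 : ℕ) : ℝ) / ((1000 : ℕ) : ℝ)) ≤ d) (hd' : d ≤ (((6033 : ℕ) : ℝ) / ((1000 : ℕ) : ℝ))) :
    Tendsto (gwAdvantage 3 (-(1 / Real.sqrt d)) d) atTop (nhds 0) := by
  rw [neg_div] at h0
  exact gw_closed (by norm_num) cellG20 (by norm_num) (by norm_num) (by norm_num) (by norm_num)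
    (by norm_num) h0 hd hd'

theorem cellG21 : Cell (4027 / 10000) (509 / 1250) (((12569 : ℕ) : ℝ) / ((100000 : ℕ) : ℝ)) (300681 / 500000) (1091347 / 1000000) (306871 / 1000000) (719529 / 200000) (867229 / 200000) := by
  constructor <;> norm_num [psi]

/-- Poisson degrees in `[6.033, 6.166]` -/
theorem closeG21 {l0 : ℕ}
    (h0 : Pot (A 3) (gwL 3 (-((509 : ℕ) : ℝ) / ((1250 : ℕ) : ℝ)) (((6166 : ℕ) : ℝ) / ((1000 : ℕ) : ℝ)) l0) ≤ 2 * (((12569 : ℕ) : ℝ) / ((100000 : ℕ) : ℝ)))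
    {d : ℝ} (hd : (((6033 : ℕ) : ℝ) / ((1000 : ℕ) : ℝ)) ≤ d) (hd' : d ≤ (((6166 : ℕ) : ℝ) / ((1000 : ℕ) : ℝ))) :
    Tendsto (gwAdvantage 3 (-(1 / Real.sqrt d)) d) atTop (nhds 0) := by
  rw [neg_div] at h0
  exact gw_closed (by norm_num) cellG21 (by norm_num) (by norm_num) (by norm_num) (by norm_num)
    (by norm_num) h0 hd hd'

theorem cellG22 : Cell (3983 / 10000) (1007 / 2500) (((12751 : ℕ) : ℝ) / ((100000 : ℕ) : ℝ)) (299073 / 500000) (34149 / 31250) (312031 / 1000000) (448613 / 125000) (4311841 / 1000000) := by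
  constructor <;> norm_num [psi]

/-- Poisson degrees in `[6.166, 6.302]` -/
theorem closeG22 {l0 : ℕ}
    (h0 : Pot (A 3) (gwL 3 (-((1007 : ℕ) : ℝ) / ((2500 : ℕ) : ℝ)) (((6302 : ℕ) : ℝ) / ((1000 : ℕ) : ℝ)) l0) ≤ 2 * (((12751 : ℕ) : ℝ) / ((100000 : ℕ) : ℝ)))
    {d : ℝ} (hd : (((6166 : ℕ) : ℝ) / ((1000 : ℕ) : ℝ)) ≤ d) (hd' : d ≤ (((6302 : ℕ) : ℝ) / ((1000 : ℕ) : ℝ))) :
    Tendsto (gwAdvantage 3 (-(1 / Real.sqrt d)) d) atTop (nhds 0) := by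
  rw [neg_div] at h0
  exact gw_closed (by norm_num) cellG22 (by norm_num) (by norm_num) (by norm_num) (by norm_num)
    (by norm_num) h0 hd hd'

theorem cellG23 : Cell (197 / 500) (249 / 625) (((12938 : ℕ) : ℝ) / ((100000 : ℕ) : ℝ)) (74359 / 125000) (1094231 / 1000000) (63463 / 200000) (1790277 / 500000) (1072019 / 250000) := by
  constructor <;> norm_num [psi]

/-- Poisson degrees in `[6.302, 6.441]` -/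
theorem closeG23 {l0 : ℕ}
    (h0 : Pot (A 3) (gwL 3 (-((249 : ℕ) : ℝ) / ((625 : ℕ) : ℝ)) (((6441 : ℕ) : ℝ) / ((1000 : ℕ) : ℝ)) l0) ≤ 2 * (((12938 : ℕ) : ℝ) / ((100000 : ℕ) : ℝ)))
    {d : ℝ} (hd : (((6302 : ℕ) : ℝ) / ((1000 : ℕ) : ℝ)) ≤ d) (hd' : d ≤ (((6441 : ℕ) : ℝ) / ((1000 : ℕ) : ℝ))) :
    Tendsto (gwAdvantage 3 (-(1 / Real.sqrt d)) d) atTop (nhds 0) := by
  rw [neg_div] at h0
  exact gw_closed (by norm_num) cellG23 (by norm_num) (by norm_num) (by norm_num) (by norm_num)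
    (by norm_num) h0 hd hd'

theorem cellG24 : Cell (3897 / 10000) (3941 / 10000) (((13123 : ℕ) : ℝ) / ((100000 : ℕ) : ℝ)) (295837 / 500000) (547841 / 500000) (161281 / 500000) (3572663 / 1000000) (1066321 / 250000) := by
  constructor <;> norm_num [psi]

/-- Poisson degrees in `[6.441, 6.583]` -/
theorem closeG24 {l0 : ℕ}
    (h0 : Pot (A 3) (gwL 3 (-((3941 : ℕ) : ℝ) / ((10000 : ℕ) : ℝ)) (((6583 : ℕ) : ℝ) / ((1000 : ℕ) : ℝ)) l0) ≤ 2 * (((13123 : ℕ) : ℝ) / ((100000 : ℕ) : ℝ)))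
    {d : ℝ} (hd : (((6441 : ℕ) : ℝ) / ((1000 : ℕ) : ℝ)) ≤ d) (hd' : d ≤ (((6583 : ℕ) : ℝ) / ((1000 : ℕ) : ℝ))) :
    Tendsto (gwAdvantage 3 (-(1 / Real.sqrt d)) d) atTop (nhds 0) := by
  rw [neg_div] at h0
  exact gw_closed (by norm_num) cellG24 (by norm_num) (by norm_num) (by norm_num) (by norm_num)
    (by norm_num) h0 hd hd'

theorem cellG25 : Cell (769 / 2000) (1949 / 5000) (((13309 : ℕ) : ℝ) / ((100000 : ℕ) : ℝ)) (117701 / 200000) (1097143 / 1000000) (41 / 125) (3565103 / 1000000) (4242869 / 1000000) := by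
  constructor <;> norm_num [psi]

/-- Poisson degrees in `[6.583, 6.761]` -/
theorem closeG25 {l0 : ℕ}
    (h0 : Pot (A 3) (gwL 3 (-((1949 : ℕ) : ℝ) / ((5000 : ℕ) : ℝ)) (((6761 : ℕ) : ℝ) / ((1000 : ℕ) : ℝ)) l0) ≤ 2 * (((13309 : ℕ) : ℝ) / ((100000 : ℕ) : ℝ)))
    {d : ℝ} (hd : (((6583 : ℕ) : ℝ) / ((1000 : ℕ) : ℝ)) ≤ d) (hd' : d ≤ (((6761 : ℕ) : ℝ) / ((1000 : ℕ) : ℝ))) :
    Tendsto (gwAdvantage 3 (-(1 / Real.sqrt d)) d) atTop (nhds 0) := by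
  rw [neg_div] at h0
  exact gw_closed (by norm_num) cellG25 (by norm_num) (by norm_num) (by norm_num) (by norm_num)
    (by norm_num) h0 hd hd'

theorem cellG26 : Cell (1897 / 5000) (1923 / 5000) (((13543 : ℕ) : ℝ) / ((100000 : ℕ) : ℝ)) (584549 / 1000000) (549493 / 500000) (167311 / 500000) (711277 / 200000) (2108249 / 500000) := by
  constructor <;> norm_num [psi]

/-- Poisson degrees in `[6.761, 6.944]` -/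
theorem closeG26 {l0 : ℕ}
    (h0 : Pot (A 3) (gwL 3 (-((1923 : ℕ) : ℝ) / ((5000 : ℕ) : ℝ)) (((6944 : ℕ) : ℝ) / ((1000 : ℕ) : ℝ)) l0) ≤ 2 * (((13543 : ℕ) : ℝ) / ((100000 : ℕ) : ℝ)))
    {d : ℝ} (hd : (((6761 : ℕ) : ℝ) / ((1000 : ℕ) : ℝ)) ≤ d) (hd' : d ≤ (((6944 : ℕ) : ℝ) / ((1000 : ℕ) : ℝ))) :
    Tendsto (gwAdvantage 3 (-(1 / Real.sqrt d)) d) atTop (nhds 0) := by
  rw [neg_div] at h0
  exact gw_closed (by norm_num) cellG26 (by norm_num) (by norm_num) (by norm_num) (by norm_num)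
    (by norm_num) h0 hd hd'

theorem cellG27 : Cell (234 / 625) (759 / 2000) (((13779 : ℕ) : ℝ) / ((100000 : ℕ) : ℝ)) (9072 / 15625) (1100849 / 1000000) (3413 / 10000) (141933 / 40000) (4191299 / 1000000) := by
  constructor <;> norm_num [psi]

/-- Poisson degrees in `[6.944, 7.131]` -/
theorem closeG27 {l0 : ℕ}
    (h0 : Pot (A 3) (gwL 3 (-((759 : ℕ) : ℝ) / ((2000 : ℕ) : ℝ)) (((7131 : ℕ) : ℝ) / ((1000 : ℕ) : ℝ)) l0) ≤ 2 * (((13779 : ℕ) : ℝ) / ((100000 : ℕ) : ℝ)))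
    {d : ℝ} (hd : (((6944 : ℕ) : ℝ) / ((1000 : ℕ) : ℝ)) ≤ d) (hd' : d ≤ (((7131 : ℕ) : ℝ) / ((1000 : ℕ) : ℝ))) :
    Tendsto (gwAdvantage 3 (-(1 / Real.sqrt d)) d) atTop (nhds 0) := by
  rw [neg_div] at h0
  exact gw_closed (by norm_num) cellG27 (by norm_num) (by norm_num) (by norm_num) (by norm_num)
    (by norm_num) h0 hd hd'

theorem cellG28 : Cell (739 / 2000) (749 / 2000) (((14017 : ℕ) : ℝ) / ((100000 : ℕ) : ℝ)) (144171 / 250000) (1102733 / 1000000) (348033 / 1000000) (1770451 / 500000) (1041809 / 250000) := by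
  constructor <;> norm_num [psi]

/-- Poisson degrees in `[7.131, 7.324]` -/
theorem closeG28 {l0 : ℕ}
    (h0 : Pot (A 3) (gwL 3 (-((749 : ℕ) : ℝ) / ((2000 : ℕ) : ℝ)) (((7324 : ℕ) : ℝ) / ((1000 : ℕ) : ℝ)) l0) ≤ 2 * (((14017 : ℕ) : ℝ) / ((100000 : ℕ) : ℝ)))
    {d : ℝ} (hd : (((7131 : ℕ) : ℝ) / ((1000 : ℕ) : ℝ)) ≤ d) (hd' : d ≤ (((7324 : ℕ) : ℝ) / ((1000 : ℕ) : ℝ))) :
    Tendsto (gwAdvantage 3 (-(1 / Real.sqrt d)) d) atTop (nhds 0) := by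
  rw [neg_div] at h0
  exact gw_closed (by norm_num) cellG28 (by norm_num) (by norm_num) (by norm_num) (by norm_num)
    (by norm_num) h0 hd hd'

theorem cellG29 : Cell (91 / 250) (231 / 625) (((14252 : ℕ) : ℝ) / ((100000 : ℕ) : ℝ)) (4583 / 8000) (1104597 / 1000000) (5544 / 15625) (88349 / 25000) (2072057 / 500000) := by
  constructor <;> norm_num [psi]

/-- Poisson degrees in `[7.324, 7.544]` -/
theorem closeG29 {l0 : ℕ}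
    (h0 : Pot (A 3) (gwL 3 (-((231 : ℕ) : ℝ) / ((625 : ℕ) : ℝ)) (((7544 : ℕ) : ℝ) / ((1000 : ℕ) : ℝ)) l0) ≤ 2 * (((14252 : ℕ) : ℝ) / ((100000 : ℕ) : ℝ)))
    {d : ℝ} (hd : (((7324 : ℕ) : ℝ) / ((1000 : ℕ) : ℝ)) ≤ d) (hd' : d ≤ (((7544 : ℕ) : ℝ) / ((1000 : ℕ) : ℝ))) :
    Tendsto (gwAdvantage 3 (-(1 / Real.sqrt d)) d) atTop (nhds 0) := by
  rw [neg_div] at h0
  exact gw_closed (by norm_num) cellG29 (by norm_num) (by norm_num) (by norm_num) (by norm_num)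
    (by norm_num) h0 hd hd'

theorem cellG30 : Cell (3587 / 10000) (3641 / 10000) (((14528 : ℕ) : ℝ) / ((100000 : ℕ) : ℝ)) (142111 / 250000) (1106793 / 1000000) (22663 / 62500) (3526773 / 1000000) (4119001 / 1000000) := by
  constructor <;> norm_num [psi]

/-- Poisson degrees in `[7.544, 7.77]` -/
theorem closeG30 {l0 : ℕ}
    (h0 : Pot (A 3) (gwL 3 (-((3641 : ℕ) : ℝ) / ((10000 : ℕ) : ℝ)) (((7770 : ℕ) : ℝ) / ((1000 : ℕ) : ℝ)) l0) ≤ 2 * (((14528 : ℕ) : ℝ) / ((100000 : ℕ) : ℝ)))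
    {d : ℝ} (hd : (((7544 : ℕ) : ℝ) / ((1000 : ℕ) : ℝ)) ≤ d) (hd' : d ≤ (((7770 : ℕ) : ℝ) / ((1000 : ℕ) : ℝ))) :
    Tendsto (gwAdvantage 3 (-(1 / Real.sqrt d)) d) atTop (nhds 0) := by
  rw [neg_div] at h0
  exact gw_closed (by norm_num) cellG30 (by norm_num) (by norm_num) (by norm_num) (by norm_num)
    (by norm_num) h0 hd hd'

theorem cellG31 : Cell (1767 / 5000) (897 / 2500) (((14800 : ℕ) : ℝ) / ((100000 : ℕ) : ℝ)) (564147 / 1000000) (277241 / 250000) (92581 / 250000) (3520307 / 1000000) (4095439 / 1000000) := by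
  constructor <;> norm_num [psi]

/-- Poisson degrees in `[7.77, 8.003]` -/
theorem closeG31 {l0 : ℕ}
    (h0 : Pot (A 3) (gwL 3 (-((897 : ℕ) : ℝ) / ((2500 : ℕ) : ℝ)) (((8003 : ℕ) : ℝ) / ((1000 : ℕ) : ℝ)) l0) ≤ 2 * (((14800 : ℕ) : ℝ) / ((100000 : ℕ) : ℝ)))
    {d : ℝ} (hd : (((7770 : ℕ) : ℝ) / ((1000 : ℕ) : ℝ)) ≤ d) (hd' : d ≤ (((8003 : ℕ) : ℝ) / ((1000 : ℕ) : ℝ))) :
    Tendsto (gwAdvantage 3 (-(1 / Real.sqrt d)) d) atTop (nhds 0) := by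
  rw [neg_div] at h0
  exact gw_closed (by norm_num) cellG31 (by norm_num) (by norm_num) (by norm_num) (by norm_num)
    (by norm_num) h0 hd hd'

theorem cellG32 : Cell (3483 / 10000) (707 / 2000) (((15081 : ℕ) : ℝ) / ((100000 : ℕ) : ℝ)) (69971 / 125000) (1111213 / 1000000) (189127 / 500000) (1757181 / 500000) (4072579 / 1000000) := by
  constructor <;> norm_num [psi]

/-- Poisson degrees in `[8.003, 8.243]` -/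
theorem closeG32 {l0 : ℕ}
    (h0 : Pot (A 3) (gwL 3 (-((707 : ℕ) : ℝ) / ((2000 : ℕ) : ℝ)) (((8243 : ℕ) : ℝ) / ((1000 : ℕ) : ℝ)) l0) ≤ 2 * (((15081 : ℕ) : ℝ) / ((100000 : ℕ) : ℝ)))
    {d : ℝ} (hd : (((8003 : ℕ) : ℝ) / ((1000 : ℕ) : ℝ)) ≤ d) (hd' : d ≤ (((8243 : ℕ) : ℝ) / ((1000 : ℕ) : ℝ))) :
    Tendsto (gwAdvantage 3 (-(1 / Real.sqrt d)) d) atTop (nhds 0) := by
  rw [neg_div] at h0
  exact gw_closed (by norm_num) cellG32 (by norm_num) (by norm_num) (by norm_num) (by norm_num)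
    (by norm_num) h0 hd hd'

theorem cellG33 : Cell (3431 / 10000) (871 / 2500) (((15358 : ℕ) : ℝ) / ((100000 : ℕ) : ℝ)) (555519 / 1000000) (278359 / 250000) (386129 / 1000000) (350911 / 100000) (162047 / 40000) := by
  constructor <;> norm_num [psi]

/-- Poisson degrees in `[8.243, 8.49]` -/
theorem closeG33 {l0 : ℕ}
    (h0 : Pot (A 3) (gwL 3 (-((871 : ℕ) : ℝ) / ((2500 : ℕ) : ℝ)) (((8490 : ℕ) : ℝ) / ((1000 : ℕ) : ℝ)) l0) ≤ 2 * (((15358 : ℕ) : ℝ) / ((100000 : ℕ) : ℝ)))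
    {d : ℝ} (hd : (((8243 : ℕ) : ℝ) / ((1000 : ℕ) : ℝ)) ≤ d) (hd' : d ≤ (((8490 : ℕ) : ℝ) / ((1000 : ℕ) : ℝ))) :
    Tendsto (gwAdvantage 3 (-(1 / Real.sqrt d)) d) atTop (nhds 0) := by
  rw [neg_div] at h0
  exact gw_closed (by norm_num) cellG33 (by norm_num) (by norm_num) (by norm_num) (by norm_num)
    (by norm_num) h0 hd hd'

theorem cellG34 : Cell (3381 / 10000) (429 / 1250) (((15650 : ℕ) : ℝ) / ((100000 : ℕ) : ℝ)) (551101 / 1000000) (1115787 / 1000000) (197183 / 500000) (3504257 / 1000000) (2015013 / 500000) := by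
  constructor <;> norm_num [psi]

/-- Poisson degrees in `[8.49, 8.745]` -/
theorem closeG34 {l0 : ℕ}
    (h0 : Pot (A 3) (gwL 3 (-((429 : ℕ) : ℝ) / ((1250 : ℕ) : ℝ)) (((8745 : ℕ) : ℝ) / ((1000 : ℕ) : ℝ)) l0) ≤ 2 * (((15650 : ℕ) : ℝ) / ((100000 : ℕ) : ℝ)))
    {d : ℝ} (hd : (((8490 : ℕ) : ℝ) / ((1000 : ℕ) : ℝ)) ≤ d) (hd' : d ≤ (((8745 : ℕ) : ℝ) / ((1000 : ℕ) : ℝ))) :
    Tendsto (gwAdvantage 3 (-(1 / Real.sqrt d)) d) atTop (nhds 0) := by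
  rw [neg_div] at h0
  exact gw_closed (by norm_num) cellG34 (by norm_num) (by norm_num) (by norm_num) (by norm_num)
    (by norm_num) h0 hd hd'

theorem cellG35 : Cell (833 / 2500) (1691 / 5000) (((15939 : ℕ) : ℝ) / ((100000 : ℕ) : ℝ)) (273397 / 500000) (1118121 / 1000000) (50317 / 125000) (875019 / 250000) (2005147 / 500000) := by
  constructor <;> norm_num [psi]

/-- Poisson degrees in `[8.745, 9.007]` -/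
theorem closeG35 {l0 : ℕ}
    (h0 : Pot (A 3) (gwL 3 (-((1691 : ℕ) : ℝ) / ((5000 : ℕ) : ℝ)) (((9007 : ℕ) : ℝ) / ((1000 : ℕ) : ℝ)) l0) ≤ 2 * (((15939 : ℕ) : ℝ) / ((100000 : ℕ) : ℝ)))
    {d : ℝ} (hd : (((8745 : ℕ) : ℝ) / ((1000 : ℕ) : ℝ)) ≤ d) (hd' : d ≤ (((9007 : ℕ) : ℝ) / ((1000 : ℕ) : ℝ))) :
    Tendsto (gwAdvantage 3 (-(1 / Real.sqrt d)) d) atTop (nhds 0) := by
  rw [neg_div] at h0
  exact gw_closed (by norm_num) cellG35 (by norm_num) (by norm_num) (by norm_num) (by norm_num)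
    (by norm_num) h0 hd hd'

theorem cellG36 : Cell (3283 / 10000) (3333 / 10000) (((16230 : ℕ) : ℝ) / ((100000 : ℕ) : ℝ)) (271261 / 500000) (1120479 / 1000000) (410783 / 1000000) (3496431 / 1000000) (3991523 / 1000000) := by
  constructor <;> norm_num [psi]

/-- Poisson degrees in `[9.007, 9.277]` -/
theorem closeG36 {l0 : ℕ}
    (h0 : Pot (A 3) (gwL 3 (-((3333 : ℕ) : ℝ) / ((10000 : ℕ) : ℝ)) (((9277 : ℕ) : ℝ) / ((1000 : ℕ) : ℝ)) l0) ≤ 2 * (((16230 : ℕ) : ℝ) / ((100000 : ℕ) : ℝ)))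
    {d : ℝ} (hd : (((9007 : ℕ) : ℝ) / ((1000 : ℕ) : ℝ)) ≤ d) (hd' : d ≤ (((9277 : ℕ) : ℝ) / ((1000 : ℕ) : ℝ))) :
    Tendsto (gwAdvantage 3 (-(1 / Real.sqrt d)) d) atTop (nhds 0) := by
  rw [neg_div] at h0
  exact gw_closed (by norm_num) cellG36 (by norm_num) (by norm_num) (by norm_num) (by norm_num)
    (by norm_num) h0 hd hd'

theorem cellG37 : Cell (647 / 2000) (821 / 2500) (((16529 : ℕ) : ℝ) / ((100000 : ℕ) : ℝ)) (538199 / 1000000) (280727 / 250000) (419233 / 1000000) (698639 / 200000) (496663 / 125000) := by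
  constructor <;> norm_num [psi]

/-- Poisson degrees in `[9.277, 9.555]` -/
theorem closeG37 {l0 : ℕ}
    (h0 : Pot (A 3) (gwL 3 (-((821 : ℕ) : ℝ) / ((2500 : ℕ) : ℝ)) (((9555 : ℕ) : ℝ) / ((1000 : ℕ) : ℝ)) l0) ≤ 2 * (((16529 : ℕ) : ℝ) / ((100000 : ℕ) : ℝ)))
    {d : ℝ} (hd : (((9277 : ℕ) : ℝ) / ((1000 : ℕ) : ℝ)) ≤ d) (hd' : d ≤ (((9555 : ℕ) : ℝ) / ((1000 : ℕ) : ℝ))) :
    Tendsto (gwAdvantage 3 (-(1 / Real.sqrt d)) d) atTop (nhds 0) := by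
  rw [neg_div] at h0
  exact gw_closed (by norm_num) cellG37 (by norm_num) (by norm_num) (by norm_num) (by norm_num)
    (by norm_num) h0 hd hd'

theorem cellG38 : Cell (793 / 2500) (809 / 2500) (((16823 : ℕ) : ℝ) / ((100000 : ℕ) : ℝ)) (267017 / 500000) (225061 / 200000) (53487 / 125000) (3490403 / 1000000) (19779 / 5000) := by
  constructor <;> norm_num [psi]

/-- Poisson degrees in `[9.555, 9.937]` -/
theorem closeG38 {l0 : ℕ}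
    (h0 : Pot (A 3) (gwL 3 (-((809 : ℕ) : ℝ) / ((2500 : ℕ) : ℝ)) (((9937 : ℕ) : ℝ) / ((1000 : ℕ) : ℝ)) l0) ≤ 2 * (((16823 : ℕ) : ℝ) / ((100000 : ℕ) : ℝ)))
    {d : ℝ} (hd : (((9555 : ℕ) : ℝ) / ((1000 : ℕ) : ℝ)) ≤ d) (hd' : d ≤ (((9937 : ℕ) : ℝ) / ((1000 : ℕ) : ℝ))) :
    Tendsto (gwAdvantage 3 (-(1 / Real.sqrt d)) d) atTop (nhds 0) := by
  rw [neg_div] at h0
  exact gw_closed (by norm_num) cellG38 (by norm_num) (by norm_num) (by norm_num) (by norm_num)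
    (by norm_num) h0 hd hd'

theorem cellG39 : Cell (311 / 1000) (3173 / 10000) (((17232 : ℕ) : ℝ) / ((100000 : ℕ) : ℝ)) (132077 / 250000) (1128651 / 1000000) (219733 / 500000) (435939 / 125000) (245871 / 62500) := by
  constructor <;> norm_num [psi]

/-- Poisson degrees in `[9.937, 10.334]` -/
theorem closeG39 {l0 : ℕ}
    (h0 : Pot (A 3) (gwL 3 (-((3173 : ℕ) : ℝ) / ((10000 : ℕ) : ℝ)) (((10334 : ℕ) : ℝ) / ((1000 : ℕ) : ℝ)) l0) ≤ 2 * (((17232 : ℕ) : ℝ) / ((100000 : ℕ) : ℝ)))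
    {d : ℝ} (hd : (((9937 : ℕ) : ℝ) / ((1000 : ℕ) : ℝ)) ≤ d) (hd' : d ≤ (((10334 : ℕ) : ℝ) / ((1000 : ℕ) : ℝ))) :
    Tendsto (gwAdvantage 3 (-(1 / Real.sqrt d)) d) atTop (nhds 0) := by
  rw [neg_div] at h0
  exact gw_closed (by norm_num) cellG39 (by norm_num) (by norm_num) (by norm_num) (by norm_num)
    (by norm_num) h0 hd hd'

theorem cellG40 : Cell (61 / 200) (3111 / 10000) (((17652 : ℕ) : ℝ) / ((100000 : ℕ) : ℝ)) (261271 / 500000) (1132101 / 1000000) (112831 / 250000) (6971 / 2000) (3913397 / 1000000) := by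
  constructor <;> norm_num [psi]

/-- Poisson degrees in `[10.334, 10.747]` -/
theorem closeG40 {l0 : ℕ}
    (h0 : Pot (A 3) (gwL 3 (-((3111 : ℕ) : ℝ) / ((10000 : ℕ) : ℝ)) (((10747 : ℕ) : ℝ) / ((1000 : ℕ) : ℝ)) l0) ≤ 2 * (((17652 : ℕ) : ℝ) / ((100000 : ℕ) : ℝ)))
    {d : ℝ} (hd : (((10334 : ℕ) : ℝ) / ((1000 : ℕ) : ℝ)) ≤ d) (hd' : d ≤ (((10747 : ℕ) : ℝ) / ((1000 : ℕ) : ℝ))) :
    Tendsto (gwAdvantage 3 (-(1 / Real.sqrt d)) d) atTop (nhds 0) := by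
  rw [neg_div] at h0
  exact gw_closed (by norm_num) cellG40 (by norm_num) (by norm_num) (by norm_num) (by norm_num)
    (by norm_num) h0 hd hd'

theorem cellG41 : Cell (186 / 625) (3051 / 10000) (((18065 : ℕ) : ℝ) / ((100000 : ℕ) : ℝ)) (129253 / 250000) (1135509 / 1000000) (463359 / 1000000) (696831 / 200000) (486769 / 125000) := by
  constructor <;> norm_num [psi]

/-- Poisson degrees in `[10.747, 11.284]` -/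
theorem closeG41 {l0 : ℕ}
    (h0 : Pot (A 3) (gwL 3 (-((3051 : ℕ) : ℝ) / ((10000 : ℕ) : ℝ)) (((11284 : ℕ) : ℝ) / ((1000 : ℕ) : ℝ)) l0) ≤ 2 * (((18065 : ℕ) : ℝ) / ((100000 : ℕ) : ℝ)))
    {d : ℝ} (hd : (((10747 : ℕ) : ℝ) / ((1000 : ℕ) : ℝ)) ≤ d) (hd' : d ≤ (((11284 : ℕ) : ℝ) / ((1000 : ℕ) : ℝ))) :
    Tendsto (gwAdvantage 3 (-(1 / Real.sqrt d)) d) atTop (nhds 0) := by
  rw [neg_div] at h0
  exact gw_closed (by norm_num) cellG41 (by norm_num) (by norm_num) (by norm_num) (by norm_num)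
    (by norm_num) h0 hd hd'

theorem cellG42 : Cell (581 / 2000) (2977 / 10000) (((18608 : ℕ) : ℝ) / ((100000 : ℕ) : ℝ)) (254937 / 500000) (285003 / 250000) (478689 / 1000000) (348369 / 100000) (1935973 / 500000) := by
  constructor <;> norm_num [psi]

/-- Poisson degrees in `[11.284, 11.848]` -/
theorem closeG42 {l0 : ℕ}
    (h0 : Pot (A 3) (gwL 3 (-((2977 : ℕ) : ℝ) / ((10000 : ℕ) : ℝ)) (((11848 : ℕ) : ℝ) / ((1000 : ℕ) : ℝ)) l0) ≤ 2 * (((18608 : ℕ) : ℝ) / ((100000 : ℕ) : ℝ)))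
    {d : ℝ} (hd : (((11284 : ℕ) : ℝ) / ((1000 : ℕ) : ℝ)) ≤ d) (hd' : d ≤ (((11848 : ℕ) : ℝ) / ((1000 : ℕ) : ℝ))) :
    Tendsto (gwAdvantage 3 (-(1 / Real.sqrt d)) d) atTop (nhds 0) := by
  rw [neg_div] at h0
  exact gw_closed (by norm_num) cellG42 (by norm_num) (by norm_num) (by norm_num) (by norm_num)
    (by norm_num) h0 hd hd'

theorem cellG43 : Cell (567 / 2000) (1453 / 5000) (((19154 : ℕ) : ℝ) / ((100000 : ℕ) : ℝ)) (3143 / 6250) (228913 / 200000) (6177 / 12500) (348439 / 100000) (3851923 / 1000000) := by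
  constructor <;> norm_num [psi]

/-- Poisson degrees in `[11.848, 12.44]` -/
theorem closeG43 {l0 : ℕ}
    (h0 : Pot (A 3) (gwL 3 (-((1453 : ℕ) : ℝ) / ((5000 : ℕ) : ℝ)) (((12440 : ℕ) : ℝ) / ((1000 : ℕ) : ℝ)) l0) ≤ 2 * (((19154 : ℕ) : ℝ) / ((100000 : ℕ) : ℝ)))
    {d : ℝ} (hd : (((11848 : ℕ) : ℝ) / ((1000 : ℕ) : ℝ)) ≤ d) (hd' : d ≤ (((12440 : ℕ) : ℝ) / ((1000 : ℕ) : ℝ))) :
    Tendsto (gwAdvantage 3 (-(1 / Real.sqrt d)) d) atTop (nhds 0) := by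
  rw [neg_div] at h0
  exact gw_closed (by norm_num) cellG43 (by norm_num) (by norm_num) (by norm_num) (by norm_num)
    (by norm_num) h0 hd hd'

theorem cellG44 : Cell (1383 / 5000) (709 / 2500) (((19717 : ℕ) : ℝ) / ((100000 : ℕ) : ℝ)) (495857 / 1000000) (574643 / 500000) (4081 / 8000) (174307 / 50000) (3833407 / 1000000) := by
  constructor <;> norm_num [psi]

/-- Poisson degrees in `[12.44, 13.062]` -/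
theorem closeG44 {l0 : ℕ}
    (h0 : Pot (A 3) (gwL 3 (-((709 : ℕ) : ℝ) / ((2500 : ℕ) : ℝ)) (((13062 : ℕ) : ℝ) / ((1000 : ℕ) : ℝ)) l0) ≤ 2 * (((19717 : ℕ) : ℝ) / ((100000 : ℕ) : ℝ)))
    {d : ℝ} (hd : (((12440 : ℕ) : ℝ) / ((1000 : ℕ) : ℝ)) ≤ d) (hd' : d ≤ (((13062 : ℕ) : ℝ) / ((1000 : ℕ) : ℝ))) :
    Tendsto (gwAdvantage 3 (-(1 / Real.sqrt d)) d) atTop (nhds 0) := by
  rw [neg_div] at h0
  exact gw_closed (by norm_num) cellG44 (by norm_num) (by norm_num) (by norm_num) (by norm_num)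
    (by norm_num) h0 hd hd'

theorem cellG45 : Cell (27 / 100) (2767 / 10000) (((20301 : ℕ) : ℝ) / ((100000 : ℕ) : ℝ)) (244379 / 500000) (1154211 / 1000000) (8229 / 15625) (3489057 / 1000000) (954117 / 250000) := by
  constructor <;> norm_num [psi]

/-- Poisson degrees in `[13.062, 13.715]` -/
theorem closeG45 {l0 : ℕ}
    (h0 : Pot (A 3) (gwL 3 (-((2767 : ℕ) : ℝ) / ((10000 : ℕ) : ℝ)) (((13715 : ℕ) : ℝ) / ((1000 : ℕ) : ℝ)) l0) ≤ 2 * (((20301 : ℕ) : ℝ) / ((100000 : ℕ) : ℝ)))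
    {d : ℝ} (hd : (((13062 : ℕ) : ℝ) / ((1000 : ℕ) : ℝ)) ≤ d) (hd' : d ≤ (((13715 : ℕ) : ℝ) / ((1000 : ℕ) : ℝ))) :
    Tendsto (gwAdvantage 3 (-(1 / Real.sqrt d)) d) atTop (nhds 0) := by
  rw [neg_div] at h0
  exact gw_closed (by norm_num) cellG45 (by norm_num) (by norm_num) (by norm_num) (by norm_num)
    (by norm_num) h0 hd hd'

theorem cellG46 : Cell (527 / 2000) (2701 / 10000) (((20886 : ℕ) : ℝ) / ((100000 : ℕ) : ℝ)) (120459 / 250000) (579587 / 500000) (543293 / 1000000) (873241 / 250000) (950363 / 250000) := by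
  constructor <;> norm_num [psi]

/-- Poisson degrees in `[13.715, 14.401]` -/
theorem closeG46 {l0 : ℕ}
    (h0 : Pot (A 3) (gwL 3 (-((2701 : ℕ) : ℝ) / ((10000 : ℕ) : ℝ)) (((14401 : ℕ) : ℝ) / ((1000 : ℕ) : ℝ)) l0) ≤ 2 * (((20886 : ℕ) : ℝ) / ((100000 : ℕ) : ℝ)))
    {d : ℝ} (hd : (((13715 : ℕ) : ℝ) / ((1000 : ℕ) : ℝ)) ≤ d) (hd' : d ≤ (((14401 : ℕ) : ℝ) / ((1000 : ℕ) : ℝ))) :
    Tendsto (gwAdvantage 3 (-(1 / Real.sqrt d)) d) atTop (nhds 0) := by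
  rw [neg_div] at h0
  exact gw_closed (by norm_num) cellG46 (by norm_num) (by norm_num) (by norm_num) (by norm_num)
    (by norm_num) h0 hd hd'

theorem cellG47 : Cell (2571 / 10000) (659 / 2500) (((21488 : ℕ) : ℝ) / ((100000 : ℕ) : ℝ)) (94981 / 200000) (145539 / 125000) (560449 / 1000000) (1748923 / 500000) (3787801 / 1000000) := by
  constructor <;> norm_num [psi]

/-- Poisson degrees in `[14.401, 15.121]` -/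
theorem closeG47 {l0 : ℕ}
    (h0 : Pot (A 3) (gwL 3 (-((659 : ℕ) : ℝ) / ((2500 : ℕ) : ℝ)) (((15121 : ℕ) : ℝ) / ((1000 : ℕ) : ℝ)) l0) ≤ 2 * (((21488 : ℕ) : ℝ) / ((100000 : ℕ) : ℝ)))
    {d : ℝ} (hd : (((14401 : ℕ) : ℝ) / ((1000 : ℕ) : ℝ)) ≤ d) (hd' : d ≤ (((15121 : ℕ) : ℝ) / ((1000 : ℕ) : ℝ))) :
    Tendsto (gwAdvantage 3 (-(1 / Real.sqrt d)) d) atTop (nhds 0) := by
  rw [neg_div] at h0
  exact gw_closed (by norm_num) cellG47 (by norm_num) (by norm_num) (by norm_num) (by norm_num)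
    (by norm_num) h0 hd hd'

theorem cellG48 : Cell (2497 / 10000) (643 / 2500) (((22102 : ℕ) : ℝ) / ((100000 : ℕ) : ℝ)) (468041 / 1000000) (73099 / 62500) (578291 / 1000000) (3503653 / 1000000) (188767 / 50000) := by
  constructor <;> norm_num [psi]

/-- Poisson degrees in `[15.121, 16.028]` -/
theorem closeG48 {l0 : ℕ}
    (h0 : Pot (A 3) (gwL 3 (-((643 : ℕ) : ℝ) / ((2500 : ℕ) : ℝ)) (((16028 : ℕ) : ℝ) / ((1000 : ℕ) : ℝ)) l0) ≤ 2 * (((22102 : ℕ) : ℝ) / ((100000 : ℕ) : ℝ)))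
    {d : ℝ} (hd : (((15121 : ℕ) : ℝ) / ((1000 : ℕ) : ℝ)) ≤ d) (hd' : d ≤ (((16028 : ℕ) : ℝ) / ((1000 : ℕ) : ℝ))) :
    Tendsto (gwAdvantage 3 (-(1 / Real.sqrt d)) d) atTop (nhds 0) := by
  rw [neg_div] at h0
  exact gw_closed (by norm_num) cellG48 (by norm_num) (by norm_num) (by norm_num) (by norm_num)
    (by norm_num) h0 hd hd'

theorem cellG49 : Cell (1213 / 5000) (1249 / 5000) (((22859 : ℕ) : ℝ) / ((100000 : ℕ) : ℝ)) (14369 / 31250) (18377 / 15625) (299977 / 500000) (1755999 / 500000) (3762707 / 1000000) := by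
  constructor <;> norm_num [psi]

/-- Poisson degrees in `[16.028, 16.99]` -/
theorem closeG49 {l0 : ℕ}
    (h0 : Pot (A 3) (gwL 3 (-((1249 : ℕ) : ℝ) / ((5000 : ℕ) : ℝ)) (((16990 : ℕ) : ℝ) / ((1000 : ℕ) : ℝ)) l0) ≤ 2 * (((22859 : ℕ) : ℝ) / ((100000 : ℕ) : ℝ)))
    {d : ℝ} (hd : (((16028 : ℕ) : ℝ) / ((1000 : ℕ) : ℝ)) ≤ d) (hd' : d ≤ (((16990 : ℕ) : ℝ) / ((1000 : ℕ) : ℝ))) :
    Tendsto (gwAdvantage 3 (-(1 / Real.sqrt d)) d) atTop (nhds 0) := by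
  rw [neg_div] at h0
  exact gw_closed (by norm_num) cellG49 (by norm_num) (by norm_num) (by norm_num) (by norm_num)
    (by norm_num) h0 hd hd'

theorem cellG50 : Cell (589 / 2500) (2427 / 10000) (((23624 : ℕ) : ℝ) / ((100000 : ℕ) : ℝ)) (112941 / 250000) (118279 / 100000) (155501 / 250000) (3521513 / 1000000) (1876057 / 500000) := by
  constructor <;> norm_num [psi]

/-- Poisson degrees in `[16.99, 18.009]` -/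
theorem closeG50 {l0 : ℕ}
    (h0 : Pot (A 3) (gwL 3 (-((2427 : ℕ) : ℝ) / ((10000 : ℕ) : ℝ)) (((18009 : ℕ) : ℝ) / ((1000 : ℕ) : ℝ)) l0) ≤ 2 * (((23624 : ℕ) : ℝ) / ((100000 : ℕ) : ℝ)))
    {d : ℝ} (hd : (((16990 : ℕ) : ℝ) / ((1000 : ℕ) : ℝ)) ≤ d) (hd' : d ≤ (((18009 : ℕ) : ℝ) / ((1000 : ℕ) : ℝ))) :
    Tendsto (gwAdvantage 3 (-(1 / Real.sqrt d)) d) atTop (nhds 0) := by
  rw [neg_div] at h0
  exact gw_closed (by norm_num) cellG50 (by norm_num) (by norm_num) (by norm_num) (by norm_num)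
    (by norm_num) h0 hd hd'

theorem cellG51 : Cell (143 / 625) (2357 / 10000) (((24421 : ℕ) : ℝ) / ((100000 : ℕ) : ℝ)) (221829 / 500000) (148723 / 125000) (322539 / 500000) (883127 / 250000) (3743281 / 1000000) := by
  constructor <;> norm_num [psi]

/-- Poisson degrees in `[18.009, 19.09]` -/
theorem closeG51 {l0 : ℕ}
    (h0 : Pot (A 3) (gwL 3 (-((2357 : ℕ) : ℝ) / ((10000 : ℕ) : ℝ)) (((19090 : ℕ) : ℝ) / ((1000 : ℕ) : ℝ)) l0) ≤ 2 * (((24421 : ℕ) : ℝ) / ((100000 : ℕ) : ℝ)))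
    {d : ℝ} (hd : (((18009 : ℕ) : ℝ) / ((1000 : ℕ) : ℝ)) ≤ d) (hd' : d ≤ (((19090 : ℕ) : ℝ) / ((1000 : ℕ) : ℝ))) :
    Tendsto (gwAdvantage 3 (-(1 / Real.sqrt d)) d) atTop (nhds 0) := by
  rw [neg_div] at h0
  exact gw_closed (by norm_num) cellG51 (by norm_num) (by norm_num) (by norm_num) (by norm_num)
    (by norm_num) h0 hd hd'

theorem cellG52 : Cell (1101 / 5000) (2289 / 10000) (((25221 : ℕ) : ℝ) / ((100000 : ℕ) : ℝ)) (435823 / 1000000) (1196859 / 1000000) (33449 / 50000) (3544407 / 1000000) (58372 / 15625) := by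
  constructor <;> norm_num [psi]

/-- Poisson degrees in `[19.09, 20.617]` -/
theorem closeG52 {l0 : ℕ}
    (h0 : Pot (A 3) (gwL 3 (-((2289 : ℕ) : ℝ) / ((10000 : ℕ) : ℝ)) (((20617 : ℕ) : ℝ) / ((1000 : ℕ) : ℝ)) l0) ≤ 2 * (((25221 : ℕ) : ℝ) / ((100000 : ℕ) : ℝ)))
    {d : ℝ} (hd : (((19090 : ℕ) : ℝ) / ((1000 : ℕ) : ℝ)) ≤ d) (hd' : d ≤ (((20617 : ℕ) : ℝ) / ((1000 : ℕ) : ℝ))) :
    Tendsto (gwAdvantage 3 (-(1 / Real.sqrt d)) d) atTop (nhds 0) := by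
  rw [neg_div] at h0
  exact gw_closed (by norm_num) cellG52 (by norm_num) (by norm_num) (by norm_num) (by norm_num)
    (by norm_num) h0 hd hd'

theorem cellG53 : Cell (2119 / 10000) (2203 / 10000) (((26316 : ℕ) : ℝ) / ((100000 : ℕ) : ℝ)) (425479 / 1000000) (120663 / 100000) (350593 / 500000) (1781119 / 500000) (3729203 / 1000000) := by
  constructor <;> norm_num [psi]

/-- Poisson degrees in `[20.617, 22.266]` -/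
theorem closeG53 {l0 : ℕ}
    (h0 : Pot (A 3) (gwL 3 (-((2203 : ℕ) : ℝ) / ((10000 : ℕ) : ℝ)) (((22266 : ℕ) : ℝ) / ((1000 : ℕ) : ℝ)) l0) ≤ 2 * (((26316 : ℕ) : ℝ) / ((100000 : ℕ) : ℝ)))
    {d : ℝ} (hd : (((20617 : ℕ) : ℝ) / ((1000 : ℕ) : ℝ)) ≤ d) (hd' : d ≤ (((22266 : ℕ) : ℝ) / ((1000 : ℕ) : ℝ))) :
    Tendsto (gwAdvantage 3 (-(1 / Real.sqrt d)) d) atTop (nhds 0) := by
  rw [neg_div] at h0
  exact gw_closed (by norm_num) cellG53 (by norm_num) (by norm_num) (by norm_num) (by norm_num)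
    (by norm_num) h0 hd hd'

theorem cellG54 : Cell (2039 / 10000) (53 / 250) (((27446 : ℕ) : ℝ) / ((100000 : ℕ) : ℝ)) (103821 / 250000) (1216821 / 1000000) (45927 / 62500) (1791087 / 500000) (186271 / 50000) := by
  constructor <;> norm_num [psi]

/-- Poisson degrees in `[22.266, 24.047]` -/
theorem closeG54 {l0 : ℕ}
    (h0 : Pot (A 3) (gwL 3 (-((53 : ℕ) : ℝ) / ((250 : ℕ) : ℝ)) (((24047 : ℕ) : ℝ) / ((1000 : ℕ) : ℝ)) l0) ≤ 2 * (((27446 : ℕ) : ℝ) / ((100000 : ℕ) : ℝ)))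
    {d : ℝ} (hd : (((22266 : ℕ) : ℝ) / ((1000 : ℕ) : ℝ)) ≤ d) (hd' : d ≤ (((24047 : ℕ) : ℝ) / ((1000 : ℕ) : ℝ))) :
    Tendsto (gwAdvantage 3 (-(1 / Real.sqrt d)) d) atTop (nhds 0) := by
  rw [neg_div] at h0
  exact gw_closed (by norm_num) cellG54 (by norm_num) (by norm_num) (by norm_num) (by norm_num)
    (by norm_num) h0 hd hd'

theorem cellG55 : Cell (981 / 5000) (51 / 250) (((28607 : ℕ) : ℝ) / ((100000 : ℕ) : ℝ)) (50661 / 125000) (245481 / 200000) (769901 / 1000000) (3604051 / 1000000) (931071 / 250000) := by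
  constructor <;> norm_num [psi]

/-- Poisson degrees in `[24.047, 25.971]` -/
theorem closeG55 {l0 : ℕ}
    (h0 : Pot (A 3) (gwL 3 (-((51 : ℕ) : ℝ) / ((250 : ℕ) : ℝ)) (((25971 : ℕ) : ℝ) / ((1000 : ℕ) : ℝ)) l0) ≤ 2 * (((28607 : ℕ) : ℝ) / ((100000 : ℕ) : ℝ)))
    {d : ℝ} (hd : (((24047 : ℕ) : ℝ) / ((1000 : ℕ) : ℝ)) ≤ d) (hd' : d ≤ (((25971 : ℕ) : ℝ) / ((1000 : ℕ) : ℝ))) :
    Tendsto (gwAdvantage 3 (-(1 / Real.sqrt d)) d) atTop (nhds 0) := by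
  rw [neg_div] at h0
  exact gw_closed (by norm_num) cellG55 (by norm_num) (by norm_num) (by norm_num) (by norm_num)
    (by norm_num) h0 hd hd'

theorem cellG56 : Cell (118 / 625) (1963 / 10000) (((29798 : ℕ) : ℝ) / ((100000 : ℕ) : ℝ)) (197751 / 500000) (1238381 / 1000000) (10081 / 12500) (3627849 / 1000000) (3725707 / 1000000) := by
  constructor <;> norm_num [psi]

/-- Poisson degrees in `[25.971, 28.049]` -/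
theorem closeG56 {l0 : ℕ}
    (h0 : Pot (A 3) (gwL 3 (-((1963 : ℕ) : ℝ) / ((10000 : ℕ) : ℝ)) (((28049 : ℕ) : ℝ) / ((1000 : ℕ) : ℝ)) l0) ≤ 2 * (((29798 : ℕ) : ℝ) / ((100000 : ℕ) : ℝ)))
    {d : ℝ} (hd : (((25971 : ℕ) : ℝ) / ((1000 : ℕ) : ℝ)) ≤ d) (hd' : d ≤ (((28049 : ℕ) : ℝ) / ((1000 : ℕ) : ℝ))) :
    Tendsto (gwAdvantage 3 (-(1 / Real.sqrt d)) d) atTop (nhds 0) := by
  rw [neg_div] at h0
  exact gw_closed (by norm_num) cellG56 (by norm_num) (by norm_num) (by norm_num) (by norm_num)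
    (by norm_num) h0 hd hd'

theorem cellG57 : Cell (227 / 1250) (1889 / 10000) (((31014 : ℕ) : ℝ) / ((100000 : ℕ) : ℝ)) (385973 / 1000000) (78107 / 62500) (33783 / 40000) (913351 / 250000) (1864751 / 500000) := by
  constructor <;> norm_num [psi]

/-- Poisson degrees in `[28.049, 30.293]` -/
theorem closeG57 {l0 : ℕ}
    (h0 : Pot (A 3) (gwL 3 (-((1889 : ℕ) : ℝ) / ((10000 : ℕ) : ℝ)) (((30293 : ℕ) : ℝ) / ((1000 : ℕ) : ℝ)) l0) ≤ 2 * (((31014 : ℕ) : ℝ) / ((100000 : ℕ) : ℝ)))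
    {d : ℝ} (hd : (((28049 : ℕ) : ℝ) / ((1000 : ℕ) : ℝ)) ≤ d) (hd' : d ≤ (((30293 : ℕ) : ℝ) / ((1000 : ℕ) : ℝ))) :
    Tendsto (gwAdvantage 3 (-(1 / Real.sqrt d)) d) atTop (nhds 0) := by
  rw [neg_div] at h0
  exact gw_closed (by norm_num) cellG57 (by norm_num) (by norm_num) (by norm_num) (by norm_num)
    (by norm_num) h0 hd hd'

theorem cellG58 : Cell (437 / 2500) (1817 / 10000) (((32271 : ℕ) : ℝ) / ((100000 : ℕ) : ℝ)) (376579 / 1000000) (315389 / 250000) (442367 / 500000) (147241 / 40000) (3735673 / 1000000) := by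
  constructor <;> norm_num [psi]

/-- Poisson degrees in `[30.293, 32.716]` -/
theorem closeG58 {l0 : ℕ}
    (h0 : Pot (A 3) (gwL 3 (-((1817 : ℕ) : ℝ) / ((10000 : ℕ) : ℝ)) (((32716 : ℕ) : ℝ) / ((1000 : ℕ) : ℝ)) l0) ≤ 2 * (((32271 : ℕ) : ℝ) / ((100000 : ℕ) : ℝ)))
    {d : ℝ} (hd : (((30293 : ℕ) : ℝ) / ((1000 : ℕ) : ℝ)) ≤ d) (hd' : d ≤ (((32716 : ℕ) : ℝ) / ((1000 : ℕ) : ℝ))) :
    Tendsto (gwAdvantage 3 (-(1 / Real.sqrt d)) d) atTop (nhds 0) := by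
  rw [neg_div] at h0
  exact gw_closed (by norm_num) cellG58 (by norm_num) (by norm_num) (by norm_num) (by norm_num)
    (by norm_num) h0 hd hd'

theorem cellG59 : Cell (1707 / 10000) (1749 / 10000) (((33547 : ℕ) : ℝ) / ((100000 : ℕ) : ℝ)) (367467 / 1000000) (636859 / 500000) (925677 / 1000000) (3710223 / 1000000) (3744383 / 1000000) := by
  constructor <;> norm_num [psi]

/-- Poisson degrees in `[32.716, 34.3]` -/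
theorem closeG59 {l0 : ℕ}
    (h0 : Pot (A 3) (gwL 3 (-((1749 : ℕ) : ℝ) / ((10000 : ℕ) : ℝ)) (((34300 : ℕ) : ℝ) / ((1000 : ℕ) : ℝ)) l0) ≤ 2 * (((33547 : ℕ) : ℝ) / ((100000 : ℕ) : ℝ)))
    {d : ℝ} (hd : (((32716 : ℕ) : ℝ) / ((1000 : ℕ) : ℝ)) ≤ d) (hd' : d ≤ (((34300 : ℕ) : ℝ) / ((1000 : ℕ) : ℝ))) :
    Tendsto (gwAdvantage 3 (-(1 / Real.sqrt d)) d) atTop (nhds 0) := by
  rw [neg_div] at h0
  exact gw_closed (by norm_num) cellG59 (by norm_num) (by norm_num) (by norm_num) (by norm_num)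
    (by norm_num) h0 hd hd'

/-- **The assembly**: the bounds at one level of each run give `Target244`. -/
theorem target244_of_runs
    {lR4 : ℕ} (hR4 : Pot (A 3) (regL 3 4 (-((1 : ℕ) : ℝ) / ((2 : ℕ) : ℝ)) lR4) ≤ 2 * (((9422 : ℕ) : ℝ) / ((100000 : ℕ) : ℝ)))
    {lR5 : ℕ} (hR5 : Pot (A 3) (regL 3 5 (-((56 : ℕ) : ℝ) / ((125 : ℕ) : ℝ)) lR5) ≤ 2 * (((11076 : ℕ) : ℝ) / ((100000 : ℕ) : ℝ)))
    {lR6 : ℕ} (hR6 : Pot (A 3) (regL 3 6 (-((409 : ℕ) : ℝ) / ((1000 : ℕ) : ℝ)) lR6) ≤ 2 * (((12541 : ℕ) : ℝ) / ((100000 : ℕ) : ℝ)))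
    {lR7 : ℕ} (hR7 : Pot (A 3) (regL 3 7 (-((189 : ℕ) : ℝ) / ((500 : ℕ) : ℝ)) lR7) ≤ 2 * (((13872 : ℕ) : ℝ) / ((100000 : ℕ) : ℝ)))
    {lR8 : ℕ} (hR8 : Pot (A 3) (regL 3 8 (-((177 : ℕ) : ℝ) / ((500 : ℕ) : ℝ)) lR8) ≤ 2 * (((15101 : ℕ) : ℝ) / ((100000 : ℕ) : ℝ)))
    {lR9 : ℕ} (hR9 : Pot (A 3) (regL 3 9 (-((167 : ℕ) : ℝ) / ((500 : ℕ) : ℝ)) lR9) ≤ 2 * (((16250 : ℕ) : ℝ) / ((100000 : ℕ) : ℝ)))
    {lR10 : ℕ} (hR10 : Pot (A 3) (regL 3 10 (-((317 : ℕ) : ℝ) / ((1000 : ℕ) : ℝ)) lR10) ≤ 2 * (((17334 : ℕ) : ℝ) / ((100000 : ℕ) : ℝ)))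
    {lR11 : ℕ} (hR11 : Pot (A 3) (regL 3 11 (-((151 : ℕ) : ℝ) / ((500 : ℕ) : ℝ)) lR11) ≤ 2 * (((18362 : ℕ) : ℝ) / ((100000 : ℕ) : ℝ)))
    {lR12 : ℕ} (hR12 : Pot (A 3) (regL 3 12 (-((289 : ℕ) : ℝ) / ((1000 : ℕ) : ℝ)) lR12) ≤ 2 * (((19348 : ℕ) : ℝ) / ((100000 : ℕ) : ℝ)))
    {lR13 : ℕ} (hR13 : Pot (A 3) (regL 3 13 (-((139 : ℕ) : ℝ) / ((500 : ℕ) : ℝ)) lR13) ≤ 2 * (((20284 : ℕ) : ℝ) / ((100000 : ℕ) : ℝ)))
    {lR14 : ℕ} (hR14 : Pot (A 3) (regL 3 14 (-((67 : ℕ) : ℝ) / ((250 : ℕ) : ℝ)) lR14) ≤ 2 * (((21185 : ℕ) : ℝ) / ((100000 : ℕ) : ℝ)))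
    {lR15 : ℕ} (hR15 : Pot (A 3) (regL 3 15 (-((259 : ℕ) : ℝ) / ((1000 : ℕ) : ℝ)) lR15) ≤ 2 * (((22055 : ℕ) : ℝ) / ((100000 : ℕ) : ℝ)))
    {lR16 : ℕ} (hR16 : Pot (A 3) (regL 3 16 (-((1 : ℕ) : ℝ) / ((4 : ℕ) : ℝ)) lR16) ≤ 2 * (((22890 : ℕ) : ℝ) / ((100000 : ℕ) : ℝ)))
    {lR17 : ℕ} (hR17 : Pot (A 3) (regL 3 17 (-((243 : ℕ) : ℝ) / ((1000 : ℕ) : ℝ)) lR17) ≤ 2 * (((23686 : ℕ) : ℝ) / ((100000 : ℕ) : ℝ)))
    {lR18 : ℕ} (hR18 : Pot (A 3) (regL 3 18 (-((59 : ℕ) : ℝ) / ((250 : ℕ) : ℝ)) lR18) ≤ 2 * (((24460 : ℕ) : ℝ) / ((100000 : ℕ) : ℝ)))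
    {lR19 : ℕ} (hR19 : Pot (A 3) (regL 3 19 (-((23 : ℕ) : ℝ) / ((100 : ℕ) : ℝ)) lR19) ≤ 2 * (((25213 : ℕ) : ℝ) / ((100000 : ℕ) : ℝ)))
    {lR20 : ℕ} (hR20 : Pot (A 3) (regL 3 20 (-((28 : ℕ) : ℝ) / ((125 : ℕ) : ℝ)) lR20) ≤ 2 * (((25939 : ℕ) : ℝ) / ((100000 : ℕ) : ℝ)))
    {lR21 : ℕ} (hR21 : Pot (A 3) (regL 3 21 (-((219 : ℕ) : ℝ) / ((1000 : ℕ) : ℝ)) lR21) ≤ 2 * (((26646 : ℕ) : ℝ) / ((100000 : ℕ) : ℝ)))
    {lR22 : ℕ} (hR22 : Pot (A 3) (regL 3 22 (-((107 : ℕ) : ℝ) / ((500 : ℕ) : ℝ)) lR22) ≤ 2 * (((27328 : ℕ) : ℝ) / ((100000 : ℕ) : ℝ)))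
    {lR23 : ℕ} (hR23 : Pot (A 3) (regL 3 23 (-((209 : ℕ) : ℝ) / ((1000 : ℕ) : ℝ)) lR23) ≤ 2 * (((27993 : ℕ) : ℝ) / ((100000 : ℕ) : ℝ)))
    {lR24 : ℕ} (hR24 : Pot (A 3) (regL 3 24 (-((41 : ℕ) : ℝ) / ((200 : ℕ) : ℝ)) lR24) ≤ 2 * (((28640 : ℕ) : ℝ) / ((100000 : ℕ) : ℝ)))
    {lR25 : ℕ} (hR25 : Pot (A 3) (regL 3 25 (-((1 : ℕ) : ℝ) / ((5 : ℕ) : ℝ)) lR25) ≤ 2 * (((29279 : ℕ) : ℝ) / ((100000 : ℕ) : ℝ)))
    {lR26 : ℕ} (hR26 : Pot (A 3) (regL 3 26 (-((197 : ℕ) : ℝ) / ((1000 : ℕ) : ℝ)) lR26) ≤ 2 * (((29875 : ℕ) : ℝ) / ((100000 : ℕ) : ℝ)))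
    {lR27 : ℕ} (hR27 : Pot (A 3) (regL 3 27 (-((193 : ℕ) : ℝ) / ((1000 : ℕ) : ℝ)) lR27) ≤ 2 * (((30474 : ℕ) : ℝ) / ((100000 : ℕ) : ℝ)))
    {lR28 : ℕ} (hR28 : Pot (A 3) (regL 3 28 (-((189 : ℕ) : ℝ) / ((1000 : ℕ) : ℝ)) lR28) ≤ 2 * (((31057 : ℕ) : ℝ) / ((100000 : ℕ) : ℝ)))
    {lR29 : ℕ} (hR29 : Pot (A 3) (regL 3 29 (-((93 : ℕ) : ℝ) / ((500 : ℕ) : ℝ)) lR29) ≤ 2 * (((31622 : ℕ) : ℝ) / ((100000 : ℕ) : ℝ)))
    {lR30 : ℕ} (hR30 : Pot (A 3) (regL 3 30 (-((183 : ℕ) : ℝ) / ((1000 : ℕ) : ℝ)) lR30) ≤ 2 * (((32167 : ℕ) : ℝ) / ((100000 : ℕ) : ℝ)))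
    {lR31 : ℕ} (hR31 : Pot (A 3) (regL 3 31 (-((9 : ℕ) : ℝ) / ((50 : ℕ) : ℝ)) lR31) ≤ 2 * (((32689 : ℕ) : ℝ) / ((100000 : ℕ) : ℝ)))
    {lR32 : ℕ} (hR32 : Pot (A 3) (regL 3 32 (-((177 : ℕ) : ℝ) / ((1000 : ℕ) : ℝ)) lR32) ≤ 2 * (((33224 : ℕ) : ℝ) / ((100000 : ℕ) : ℝ)))
    {lR33 : ℕ} (hR33 : Pot (A 3) (regL 3 33 (-((7 : ℕ) : ℝ) / ((40 : ℕ) : ℝ)) lR33) ≤ 2 * (((33733 : ℕ) : ℝ) / ((100000 : ℕ) : ℝ)))
    {lR34 : ℕ} (hR34 : Pot (A 3) (regL 3 34 (-((43 : ℕ) : ℝ) / ((250 : ℕ) : ℝ)) lR34) ≤ 2 * (((34235 : ℕ) : ℝ) / ((100000 : ℕ) : ℝ)))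
    {lG0 : ℕ} (hG0 : Pot (A 3) (gwL 3 (-((1 : ℕ) : ℝ) / ((2 : ℕ) : ℝ)) (((4068 : ℕ) : ℝ) / ((1000 : ℕ) : ℝ)) lG0) ≤ 2 * (((9411 : ℕ) : ℝ) / ((100000 : ℕ) : ℝ)))
    {lG1 : ℕ} (hG1 : Pot (A 3) (gwL 3 (-((4959 : ℕ) : ℝ) / ((10000 : ℕ) : ℝ)) (((4137 : ℕ) : ℝ) / ((1000 : ℕ) : ℝ)) lG1) ≤ 2 * (((9529 : ℕ) : ℝ) / ((100000 : ℕ) : ℝ)))
    {lG2 : ℕ} (hG2 : Pot (A 3) (gwL 3 (-((4917 : ℕ) : ℝ) / ((10000 : ℕ) : ℝ)) (((4207 : ℕ) : ℝ) / ((1000 : ℕ) : ℝ)) lG2) ≤ 2 * (((9651 : ℕ) : ℝ) / ((100000 : ℕ) : ℝ)))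
    {lG3 : ℕ} (hG3 : Pot (A 3) (gwL 3 (-((1219 : ℕ) : ℝ) / ((2500 : ℕ) : ℝ)) (((4279 : ℕ) : ℝ) / ((1000 : ℕ) : ℝ)) lG3) ≤ 2 * (((9772 : ℕ) : ℝ) / ((100000 : ℕ) : ℝ)))
    {lG4 : ℕ} (hG4 : Pot (A 3) (gwL 3 (-((967 : ℕ) : ℝ) / ((2000 : ℕ) : ℝ)) (((4352 : ℕ) : ℝ) / ((1000 : ℕ) : ℝ)) lG4) ≤ 2 * (((9895 : ℕ) : ℝ) / ((100000 : ℕ) : ℝ)))
    {lG5 : ℕ} (hG5 : Pot (A 3) (gwL 3 (-((2397 : ℕ) : ℝ) / ((5000 : ℕ) : ℝ)) (((4439 : ℕ) : ℝ) / ((1000 : ℕ) : ℝ)) lG5) ≤ 2 * (((10018 : ℕ) : ℝ) / ((100000 : ℕ) : ℝ)))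
    {lG6 : ℕ} (hG6 : Pot (A 3) (gwL 3 (-((4747 : ℕ) : ℝ) / ((10000 : ℕ) : ℝ)) (((4528 : ℕ) : ℝ) / ((1000 : ℕ) : ℝ)) lG6) ≤ 2 * (((10163 : ℕ) : ℝ) / ((100000 : ℕ) : ℝ)))
    {lG7 : ℕ} (hG7 : Pot (A 3) (gwL 3 (-((47 : ℕ) : ℝ) / ((100 : ℕ) : ℝ)) (((4619 : ℕ) : ℝ) / ((1000 : ℕ) : ℝ)) lG7) ≤ 2 * (((10310 : ℕ) : ℝ) / ((100000 : ℕ) : ℝ)))
    {lG8 : ℕ} (hG8 : Pot (A 3) (gwL 3 (-((4653 : ℕ) : ℝ) / ((10000 : ℕ) : ℝ)) (((4711 : ℕ) : ℝ) / ((1000 : ℕ) : ℝ)) lG8) ≤ 2 * (((10461 : ℕ) : ℝ) / ((100000 : ℕ) : ℝ)))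
    {lG9 : ℕ} (hG9 : Pot (A 3) (gwL 3 (-((288 : ℕ) : ℝ) / ((625 : ℕ) : ℝ)) (((4805 : ℕ) : ℝ) / ((1000 : ℕ) : ℝ)) lG9) ≤ 2 * (((10607 : ℕ) : ℝ) / ((100000 : ℕ) : ℝ)))
    {lG10 : ℕ} (hG10 : Pot (A 3) (gwL 3 (-((2281 : ℕ) : ℝ) / ((5000 : ℕ) : ℝ)) (((4901 : ℕ) : ℝ) / ((1000 : ℕ) : ℝ)) lG10) ≤ 2 * (((10760 : ℕ) : ℝ) / ((100000 : ℕ) : ℝ)))
    {lG11 : ℕ} (hG11 : Pot (A 3) (gwL 3 (-((2259 : ℕ) : ℝ) / ((5000 : ℕ) : ℝ)) (((4999 : ℕ) : ℝ) / ((1000 : ℕ) : ℝ)) lG11) ≤ 2 * (((10907 : ℕ) : ℝ) / ((100000 : ℕ) : ℝ)))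
    {lG12 : ℕ} (hG12 : Pot (A 3) (gwL 3 (-((4473 : ℕ) : ℝ) / ((10000 : ℕ) : ℝ)) (((5099 : ℕ) : ℝ) / ((1000 : ℕ) : ℝ)) lG12) ≤ 2 * (((11062 : ℕ) : ℝ) / ((100000 : ℕ) : ℝ)))
    {lG13 : ℕ} (hG13 : Pot (A 3) (gwL 3 (-((4429 : ℕ) : ℝ) / ((10000 : ℕ) : ℝ)) (((5201 : ℕ) : ℝ) / ((1000 : ℕ) : ℝ)) lG13) ≤ 2 * (((11215 : ℕ) : ℝ) / ((100000 : ℕ) : ℝ)))
    {lG14 : ℕ} (hG14 : Pot (A 3) (gwL 3 (-((877 : ℕ) : ℝ) / ((2000 : ℕ) : ℝ)) (((5305 : ℕ) : ℝ) / ((1000 : ℕ) : ℝ)) lG14) ≤ 2 * (((11371 : ℕ) : ℝ) / ((100000 : ℕ) : ℝ)))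
    {lG15 : ℕ} (hG15 : Pot (A 3) (gwL 3 (-((2171 : ℕ) : ℝ) / ((5000 : ℕ) : ℝ)) (((5411 : ℕ) : ℝ) / ((1000 : ℕ) : ℝ)) lG15) ≤ 2 * (((11527 : ℕ) : ℝ) / ((100000 : ℕ) : ℝ)))
    {lG16 : ℕ} (hG16 : Pot (A 3) (gwL 3 (-((4299 : ℕ) : ℝ) / ((10000 : ℕ) : ℝ)) (((5530 : ℕ) : ℝ) / ((1000 : ℕ) : ℝ)) lG16) ≤ 2 * (((11684 : ℕ) : ℝ) / ((100000 : ℕ) : ℝ)))
    {lG17 : ℕ} (hG17 : Pot (A 3) (gwL 3 (-((4253 : ℕ) : ℝ) / ((10000 : ℕ) : ℝ)) (((5652 : ℕ) : ℝ) / ((1000 : ℕ) : ℝ)) lG17) ≤ 2 * (((11856 : ℕ) : ℝ) / ((100000 : ℕ) : ℝ)))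
    {lG18 : ℕ} (hG18 : Pot (A 3) (gwL 3 (-((4207 : ℕ) : ℝ) / ((10000 : ℕ) : ℝ)) (((5776 : ℕ) : ℝ) / ((1000 : ℕ) : ℝ)) lG18) ≤ 2 * (((12032 : ℕ) : ℝ) / ((100000 : ℕ) : ℝ)))
    {lG19 : ℕ} (hG19 : Pot (A 3) (gwL 3 (-((4161 : ℕ) : ℝ) / ((10000 : ℕ) : ℝ)) (((5903 : ℕ) : ℝ) / ((1000 : ℕ) : ℝ)) lG19) ≤ 2 * (((12211 : ℕ) : ℝ) / ((100000 : ℕ) : ℝ)))
    {lG20 : ℕ} (hG20 : Pot (A 3) (gwL 3 (-((1029 : ℕ) : ℝ) / ((2500 : ℕ) : ℝ)) (((6033 : ℕ) : ℝ) / ((1000 : ℕ) : ℝ)) lG20) ≤ 2 * (((12391 : ℕ) : ℝ) / ((100000 : ℕ) : ℝ)))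
    {lG21 : ℕ} (hG21 : Pot (A 3) (gwL 3 (-((509 : ℕ) : ℝ) / ((1250 : ℕ) : ℝ)) (((6166 : ℕ) : ℝ) / ((1000 : ℕ) : ℝ)) lG21) ≤ 2 * (((12569 : ℕ) : ℝ) / ((100000 : ℕ) : ℝ)))
    {lG22 : ℕ} (hG22 : Pot (A 3) (gwL 3 (-((1007 : ℕ) : ℝ) / ((2500 : ℕ) : ℝ)) (((6302 : ℕ) : ℝ) / ((1000 : ℕ) : ℝ)) lG22) ≤ 2 * (((12751 : ℕ) : ℝ) / ((100000 : ℕ) : ℝ)))
    {lG23 : ℕ} (hG23 : Pot (A 3) (gwL 3 (-((249 : ℕ) : ℝ) / ((625 : ℕ) : ℝ)) (((6441 : ℕ) : ℝ) / ((1000 : ℕ) : ℝ)) lG23) ≤ 2 * (((12938 : ℕ) : ℝ) / ((100000 : ℕ) : ℝ)))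
    {lG24 : ℕ} (hG24 : Pot (A 3) (gwL 3 (-((3941 : ℕ) : ℝ) / ((10000 : ℕ) : ℝ)) (((6583 : ℕ) : ℝ) / ((1000 : ℕ) : ℝ)) lG24) ≤ 2 * (((13123 : ℕ) : ℝ) / ((100000 : ℕ) : ℝ)))
    {lG25 : ℕ} (hG25 : Pot (A 3) (gwL 3 (-((1949 : ℕ) : ℝ) / ((5000 : ℕ) : ℝ)) (((6761 : ℕ) : ℝ) / ((1000 : ℕ) : ℝ)) lG25) ≤ 2 * (((13309 : ℕ) : ℝ) / ((100000 : ℕ) : ℝ)))
    {lG26 : ℕ} (hG26 : Pot (A 3) (gwL 3 (-((1923 : ℕ) : ℝ) / ((5000 : ℕ) : ℝ)) (((6944 : ℕ) : ℝ) / ((1000 : ℕ) : ℝ)) lG26) ≤ 2 * (((13543 : ℕ) : ℝ) / ((100000 : ℕ) : ℝ)))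
    {lG27 : ℕ} (hG27 : Pot (A 3) (gwL 3 (-((759 : ℕ) : ℝ) / ((2000 : ℕ) : ℝ)) (((7131 : ℕ) : ℝ) / ((1000 : ℕ) : ℝ)) lG27) ≤ 2 * (((13779 : ℕ) : ℝ) / ((100000 : ℕ) : ℝ)))
    {lG28 : ℕ} (hG28 : Pot (A 3) (gwL 3 (-((749 : ℕ) : ℝ) / ((2000 : ℕ) : ℝ)) (((7324 : ℕ) : ℝ) / ((1000 : ℕ) : ℝ)) lG28) ≤ 2 * (((14017 : ℕ) : ℝ) / ((100000 : ℕ) : ℝ)))
    {lG29 : ℕ} (hG29 : Pot (A 3) (gwL 3 (-((231 : ℕ) : ℝ) / ((625 : ℕ) : ℝ)) (((7544 : ℕ) : ℝ) / ((1000 : ℕ) : ℝ)) lG29) ≤ 2 * (((14252 : ℕ) : ℝ) / ((100000 : ℕ) : ℝ)))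
    {lG30 : ℕ} (hG30 : Pot (A 3) (gwL 3 (-((3641 : ℕ) : ℝ) / ((10000 : ℕ) : ℝ)) (((7770 : ℕ) : ℝ) / ((1000 : ℕ) : ℝ)) lG30) ≤ 2 * (((14528 : ℕ) : ℝ) / ((100000 : ℕ) : ℝ)))
    {lG31 : ℕ} (hG31 : Pot (A 3) (gwL 3 (-((897 : ℕ) : ℝ) / ((2500 : ℕ) : ℝ)) (((8003 : ℕ) : ℝ) / ((1000 : ℕ) : ℝ)) lG31) ≤ 2 * (((14800 : ℕ) : ℝ) / ((100000 : ℕ) : ℝ)))
    {lG32 : ℕ} (hG32 : Pot (A 3) (gwL 3 (-((707 : ℕ) : ℝ) / ((2000 : ℕ) : ℝ)) (((8243 : ℕ) : ℝ) / ((1000 : ℕ) : ℝ)) lG32) ≤ 2 * (((15081 : ℕ) : ℝ) / ((100000 : ℕ) : ℝ)))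
    {lG33 : ℕ} (hG33 : Pot (A 3) (gwL 3 (-((871 : ℕ) : ℝ) / ((2500 : ℕ) : ℝ)) (((8490 : ℕ) : ℝ) / ((1000 : ℕ) : ℝ)) lG33) ≤ 2 * (((15358 : ℕ) : ℝ) / ((100000 : ℕ) : ℝ)))
    {lG34 : ℕ} (hG34 : Pot (A 3) (gwL 3 (-((429 : ℕ) : ℝ) / ((1250 : ℕ) : ℝ)) (((8745 : ℕ) : ℝ) / ((1000 : ℕ) : ℝ)) lG34) ≤ 2 * (((15650 : ℕ) : ℝ) / ((100000 : ℕ) : ℝ)))
    {lG35 : ℕ} (hG35 : Pot (A 3) (gwL 3 (-((1691 : ℕ) : ℝ) / ((5000 : ℕ) : ℝ)) (((9007 : ℕ) : ℝ) / ((1000 : ℕ) : ℝ)) lG35) ≤ 2 * (((15939 : ℕ) : ℝ) / ((100000 : ℕ) : ℝ)))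
    {lG36 : ℕ} (hG36 : Pot (A 3) (gwL 3 (-((3333 : ℕ) : ℝ) / ((10000 : ℕ) : ℝ)) (((9277 : ℕ) : ℝ) / ((1000 : ℕ) : ℝ)) lG36) ≤ 2 * (((16230 : ℕ) : ℝ) / ((100000 : ℕ) : ℝ)))
    {lG37 : ℕ} (hG37 : Pot (A 3) (gwL 3 (-((821 : ℕ) : ℝ) / ((2500 : ℕ) : ℝ)) (((9555 : ℕ) : ℝ) / ((1000 : ℕ) : ℝ)) lG37) ≤ 2 * (((16529 : ℕ) : ℝ) / ((100000 : ℕ) : ℝ)))
    {lG38 : ℕ} (hG38 : Pot (A 3) (gwL 3 (-((809 : ℕ) : ℝ) / ((2500 : ℕ) : ℝ)) (((9937 : ℕ) : ℝ) / ((1000 : ℕ) : ℝ)) lG38) ≤ 2 * (((16823 : ℕ) : ℝ) / ((100000 : ℕ) : ℝ)))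
    {lG39 : ℕ} (hG39 : Pot (A 3) (gwL 3 (-((3173 : ℕ) : ℝ) / ((10000 : ℕ) : ℝ)) (((10334 : ℕ) : ℝ) / ((1000 : ℕ) : ℝ)) lG39) ≤ 2 * (((17232 : ℕ) : ℝ) / ((100000 : ℕ) : ℝ)))
    {lG40 : ℕ} (hG40 : Pot (A 3) (gwL 3 (-((3111 : ℕ) : ℝ) / ((10000 : ℕ) : ℝ)) (((10747 : ℕ) : ℝ) / ((1000 : ℕ) : ℝ)) lG40) ≤ 2 * (((17652 : ℕ) : ℝ) / ((100000 : ℕ) : ℝ)))
    {lG41 : ℕ} (hG41 : Pot (A 3) (gwL 3 (-((3051 : ℕ) : ℝ) / ((10000 : ℕ) : ℝ)) (((11284 : ℕ) : ℝ) / ((1000 : ℕ) : ℝ)) lG41) ≤ 2 * (((18065 : ℕ) : ℝ) / ((100000 : ℕ) : ℝ)))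
    {lG42 : ℕ} (hG42 : Pot (A 3) (gwL 3 (-((2977 : ℕ) : ℝ) / ((10000 : ℕ) : ℝ)) (((11848 : ℕ) : ℝ) / ((1000 : ℕ) : ℝ)) lG42) ≤ 2 * (((18608 : ℕ) : ℝ) / ((100000 : ℕ) : ℝ)))
    {lG43 : ℕ} (hG43 : Pot (A 3) (gwL 3 (-((1453 : ℕ) : ℝ) / ((5000 : ℕ) : ℝ)) (((12440 : ℕ) : ℝ) / ((1000 : ℕ) : ℝ)) lG43) ≤ 2 * (((19154 : ℕ) : ℝ) / ((100000 : ℕ) : ℝ)))
    {lG44 : ℕ} (hG44 : Pot (A 3) (gwL 3 (-((709 : ℕ) : ℝ) / ((2500 : ℕ) : ℝ)) (((13062 : ℕ) : ℝ) / ((1000 : ℕ) : ℝ)) lG44) ≤ 2 * (((19717 : ℕ) : ℝ) / ((100000 : ℕ) : ℝ)))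
    {lG45 : ℕ} (hG45 : Pot (A 3) (gwL 3 (-((2767 : ℕ) : ℝ) / ((10000 : ℕ) : ℝ)) (((13715 : ℕ) : ℝ) / ((1000 : ℕ) : ℝ)) lG45) ≤ 2 * (((20301 : ℕ) : ℝ) / ((100000 : ℕ) : ℝ)))
    {lG46 : ℕ} (hG46 : Pot (A 3) (gwL 3 (-((2701 : ℕ) : ℝ) / ((10000 : ℕ) : ℝ)) (((14401 : ℕ) : ℝ) / ((1000 : ℕ) : ℝ)) lG46) ≤ 2 * (((20886 : ℕ) : ℝ) / ((100000 : ℕ) : ℝ)))
    {lG47 : ℕ} (hG47 : Pot (A 3) (gwL 3 (-((659 : ℕ) : ℝ) / ((2500 : ℕ) : ℝ)) (((15121 : ℕ) : ℝ) / ((1000 : ℕ) : ℝ)) lG47) ≤ 2 * (((21488 : ℕ) : ℝ) / ((100000 : ℕ) : ℝ)))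
    {lG48 : ℕ} (hG48 : Pot (A 3) (gwL 3 (-((643 : ℕ) : ℝ) / ((2500 : ℕ) : ℝ)) (((16028 : ℕ) : ℝ) / ((1000 : ℕ) : ℝ)) lG48) ≤ 2 * (((22102 : ℕ) : ℝ) / ((100000 : ℕ) : ℝ)))
    {lG49 : ℕ} (hG49 : Pot (A 3) (gwL 3 (-((1249 : ℕ) : ℝ) / ((5000 : ℕ) : ℝ)) (((16990 : ℕ) : ℝ) / ((1000 : ℕ) : ℝ)) lG49) ≤ 2 * (((22859 : ℕ) : ℝ) / ((100000 : ℕ) : ℝ)))
    {lG50 : ℕ} (hG50 : Pot (A 3) (gwL 3 (-((2427 : ℕ) : ℝ) / ((10000 : ℕ) : ℝ)) (((18009 : ℕ) : ℝ) / ((1000 : ℕ) : ℝ)) lG50) ≤ 2 * (((23624 : ℕ) : ℝ) / ((100000 : ℕ) : ℝ)))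
    {lG51 : ℕ} (hG51 : Pot (A 3) (gwL 3 (-((2357 : ℕ) : ℝ) / ((10000 : ℕ) : ℝ)) (((19090 : ℕ) : ℝ) / ((1000 : ℕ) : ℝ)) lG51) ≤ 2 * (((24421 : ℕ) : ℝ) / ((100000 : ℕ) : ℝ)))
    {lG52 : ℕ} (hG52 : Pot (A 3) (gwL 3 (-((2289 : ℕ) : ℝ) / ((10000 : ℕ) : ℝ)) (((20617 : ℕ) : ℝ) / ((1000 : ℕ) : ℝ)) lG52) ≤ 2 * (((25221 : ℕ) : ℝ) / ((100000 : ℕ) : ℝ)))
    {lG53 : ℕ} (hG53 : Pot (A 3) (gwL 3 (-((2203 : ℕ) : ℝ) / ((10000 : ℕ) : ℝ)) (((22266 : ℕ) : ℝ) / ((1000 : ℕ) : ℝ)) lG53) ≤ 2 * (((26316 : ℕ) : ℝ) / ((100000 : ℕ) : ℝ)))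
    {lG54 : ℕ} (hG54 : Pot (A 3) (gwL 3 (-((53 : ℕ) : ℝ) / ((250 : ℕ) : ℝ)) (((24047 : ℕ) : ℝ) / ((1000 : ℕ) : ℝ)) lG54) ≤ 2 * (((27446 : ℕ) : ℝ) / ((100000 : ℕ) : ℝ)))
    {lG55 : ℕ} (hG55 : Pot (A 3) (gwL 3 (-((51 : ℕ) : ℝ) / ((250 : ℕ) : ℝ)) (((25971 : ℕ) : ℝ) / ((1000 : ℕ) : ℝ)) lG55) ≤ 2 * (((28607 : ℕ) : ℝ) / ((100000 : ℕ) : ℝ)))
    {lG56 : ℕ} (hG56 : Pot (A 3) (gwL 3 (-((1963 : ℕ) : ℝ) / ((10000 : ℕ) : ℝ)) (((28049 : ℕ) : ℝ) / ((1000 : ℕ) : ℝ)) lG56) ≤ 2 * (((29798 : ℕ) : ℝ) / ((100000 : ℕ) : ℝ)))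
    {lG57 : ℕ} (hG57 : Pot (A 3) (gwL 3 (-((1889 : ℕ) : ℝ) / ((10000 : ℕ) : ℝ)) (((30293 : ℕ) : ℝ) / ((1000 : ℕ) : ℝ)) lG57) ≤ 2 * (((31014 : ℕ) : ℝ) / ((100000 : ℕ) : ℝ)))
    {lG58 : ℕ} (hG58 : Pot (A 3) (gwL 3 (-((1817 : ℕ) : ℝ) / ((10000 : ℕ) : ℝ)) (((32716 : ℕ) : ℝ) / ((1000 : ℕ) : ℝ)) lG58) ≤ 2 * (((32271 : ℕ) : ℝ) / ((100000 : ℕ) : ℝ)))
    {lG59 : ℕ} (hG59 : Pot (A 3) (gwL 3 (-((1749 : ℕ) : ℝ) / ((10000 : ℕ) : ℝ)) (((34300 : ℕ) : ℝ) / ((1000 : ℕ) : ℝ)) lG59) ≤ 2 * (((33547 : ℕ) : ℝ) / ((100000 : ℕ) : ℝ)))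
    : Target244 := by
  refine target244_of_cover (fun b hb hb' => ?_) (fun d hd hd' => ?_)
  · interval_cases b
    · exact closeR4 hR4
    · exact closeR5 hR5
    · exact closeR6 hR6
    · exact closeR7 hR7
    · exact closeR8 hR8
    · exact closeR9 hR9
    · exact closeR10 hR10
    · exact closeR11 hR11
    · exact closeR12 hR12
    · exact closeR13 hR13
    · exact closeR14 hR14
    · exact closeR15 hR15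
    · exact closeR16 hR16
    · exact closeR17 hR17
    · exact closeR18 hR18
    · exact closeR19 hR19
    · exact closeR20 hR20
    · exact closeR21 hR21
    · exact closeR22 hR22
    · exact closeR23 hR23
    · exact closeR24 hR24
    · exact closeR25 hR25
    · exact closeR26 hR26
    · exact closeR27 hR27
    · exact closeR28 hR28
    · exact closeR29 hR29
    · exact closeR30 hR30
    · exact closeR31 hR31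
    · exact closeR32 hR32
    · exact closeR33 hR33
    · exact closeR34 hR34
  · rcases le_or_gt d (((4068 : ℕ) : ℝ) / ((1000 : ℕ) : ℝ)) with h0 | h0
    · exact closeG0 hG0 (by rw [show (((4000 : ℕ) : ℝ) / ((1000 : ℕ) : ℝ)) = 4 by norm_num]; exact hd) h0
    rcases le_or_gt d (((4137 : ℕ) : ℝ) / ((1000 : ℕ) : ℝ)) with h1 | h1
    · exact closeG1 hG1 (le_of_lt h0) h1
    rcases le_or_gt d (((4207 : ℕ) : ℝ) / ((1000 : ℕ) : ℝ)) with h2 | h2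
    · exact closeG2 hG2 (le_of_lt h1) h2
    rcases le_or_gt d (((4279 : ℕ) : ℝ) / ((1000 : ℕ) : ℝ)) with h3 | h3
    · exact closeG3 hG3 (le_of_lt h2) h3
    rcases le_or_gt d (((4352 : ℕ) : ℝ) / ((1000 : ℕ) : ℝ)) with h4 | h4
    · exact closeG4 hG4 (le_of_lt h3) h4
    rcases le_or_gt d (((4439 : ℕ) : ℝ) / ((1000 : ℕ) : ℝ)) with h5 | h5
    · exact closeG5 hG5 (le_of_lt h4) h5
    rcases le_or_gt d (((4528 : ℕ) : ℝ) / ((1000 : ℕ) : ℝ)) with h6 | h6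
    · exact closeG6 hG6 (le_of_lt h5) h6
    rcases le_or_gt d (((4619 : ℕ) : ℝ) / ((1000 : ℕ) : ℝ)) with h7 | h7
    · exact closeG7 hG7 (le_of_lt h6) h7
    rcases le_or_gt d (((4711 : ℕ) : ℝ) / ((1000 : ℕ) : ℝ)) with h8 | h8
    · exact closeG8 hG8 (le_of_lt h7) h8
    rcases le_or_gt d (((4805 : ℕ) : ℝ) / ((1000 : ℕ) : ℝ)) with h9 | h9
    · exact closeG9 hG9 (le_of_lt h8) h9
    rcases le_or_gt d (((4901 : ℕ) : ℝ) / ((1000 : ℕ) : ℝ)) with h10 | h10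
    · exact closeG10 hG10 (le_of_lt h9) h10
    rcases le_or_gt d (((4999 : ℕ) : ℝ) / ((1000 : ℕ) : ℝ)) with h11 | h11
    · exact closeG11 hG11 (le_of_lt h10) h11
    rcases le_or_gt d (((5099 : ℕ) : ℝ) / ((1000 : ℕ) : ℝ)) with h12 | h12
    · exact closeG12 hG12 (le_of_lt h11) h12
    rcases le_or_gt d (((5201 : ℕ) : ℝ) / ((1000 : ℕ) : ℝ)) with h13 | h13
    · exact closeG13 hG13 (le_of_lt h12) h13
    rcases le_or_gt d (((5305 : ℕ) : ℝ) / ((1000 : ℕ) : ℝ)) with h14 | h14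
    · exact closeG14 hG14 (le_of_lt h13) h14
    rcases le_or_gt d (((5411 : ℕ) : ℝ) / ((1000 : ℕ) : ℝ)) with h15 | h15
    · exact closeG15 hG15 (le_of_lt h14) h15
    rcases le_or_gt d (((5530 : ℕ) : ℝ) / ((1000 : ℕ) : ℝ)) with h16 | h16
    · exact closeG16 hG16 (le_of_lt h15) h16
    rcases le_or_gt d (((5652 : ℕ) : ℝ) / ((1000 : ℕ) : ℝ)) with h17 | h17
    · exact closeG17 hG17 (le_of_lt h16) h17
    rcases le_or_gt d (((5776 : ℕ) : ℝ) / ((1000 : ℕ) : ℝ)) with h18 | h18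
    · exact closeG18 hG18 (le_of_lt h17) h18
    rcases le_or_gt d (((5903 : ℕ) : ℝ) / ((1000 : ℕ) : ℝ)) with h19 | h19
    · exact closeG19 hG19 (le_of_lt h18) h19
    rcases le_or_gt d (((6033 : ℕ) : ℝ) / ((1000 : ℕ) : ℝ)) with h20 | h20
    · exact closeG20 hG20 (le_of_lt h19) h20
    rcases le_or_gt d (((6166 : ℕ) : ℝ) / ((1000 : ℕ) : ℝ)) with h21 | h21
    · exact closeG21 hG21 (le_of_lt h20) h21
    rcases le_or_gt d (((6302 : ℕ) : ℝ) / ((1000 : ℕ) : ℝ)) with h22 | h22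
    · exact closeG22 hG22 (le_of_lt h21) h22
    rcases le_or_gt d (((6441 : ℕ) : ℝ) / ((1000 : ℕ) : ℝ)) with h23 | h23
    · exact closeG23 hG23 (le_of_lt h22) h23
    rcases le_or_gt d (((6583 : ℕ) : ℝ) / ((1000 : ℕ) : ℝ)) with h24 | h24
    · exact closeG24 hG24 (le_of_lt h23) h24
    rcases le_or_gt d (((6761 : ℕ) : ℝ) / ((1000 : ℕ) : ℝ)) with h25 | h25
    · exact closeG25 hG25 (le_of_lt h24) h25
    rcases le_or_gt d (((6944 : ℕ) : ℝ) / ((1000 : ℕ) : ℝ)) with h26 | h26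
    · exact closeG26 hG26 (le_of_lt h25) h26
    rcases le_or_gt d (((7131 : ℕ) : ℝ) / ((1000 : ℕ) : ℝ)) with h27 | h27
    · exact closeG27 hG27 (le_of_lt h26) h27
    rcases le_or_gt d (((7324 : ℕ) : ℝ) / ((1000 : ℕ) : ℝ)) with h28 | h28
    · exact closeG28 hG28 (le_of_lt h27) h28
    rcases le_or_gt d (((7544 : ℕ) : ℝ) / ((1000 : ℕ) : ℝ)) with h29 | h29
    · exact closeG29 hG29 (le_of_lt h28) h29
    rcases le_or_gt d (((7770 : ℕ) : ℝ) / ((1000 : ℕ) : ℝ)) with h30 | h30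
    · exact closeG30 hG30 (le_of_lt h29) h30
    rcases le_or_gt d (((8003 : ℕ) : ℝ) / ((1000 : ℕ) : ℝ)) with h31 | h31
    · exact closeG31 hG31 (le_of_lt h30) h31
    rcases le_or_gt d (((8243 : ℕ) : ℝ) / ((1000 : ℕ) : ℝ)) with h32 | h32
    · exact closeG32 hG32 (le_of_lt h31) h32
    rcases le_or_gt d (((8490 : ℕ) : ℝ) / ((1000 : ℕ) : ℝ)) with h33 | h33
    · exact closeG33 hG33 (le_of_lt h32) h33
    rcases le_or_gt d (((8745 : ℕ) : ℝ) / ((1000 : ℕ) : ℝ)) with h34 | h34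
    · exact closeG34 hG34 (le_of_lt h33) h34
    rcases le_or_gt d (((9007 : ℕ) : ℝ) / ((1000 : ℕ) : ℝ)) with h35 | h35
    · exact closeG35 hG35 (le_of_lt h34) h35
    rcases le_or_gt d (((9277 : ℕ) : ℝ) / ((1000 : ℕ) : ℝ)) with h36 | h36
    · exact closeG36 hG36 (le_of_lt h35) h36
    rcases le_or_gt d (((9555 : ℕ) : ℝ) / ((1000 : ℕ) : ℝ)) with h37 | h37
    · exact closeG37 hG37 (le_of_lt h36) h37
    rcases le_or_gt d (((9937 : ℕ) : ℝ) / ((1000 : ℕ) : ℝ)) with h38 | h38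
    · exact closeG38 hG38 (le_of_lt h37) h38
    rcases le_or_gt d (((10334 : ℕ) : ℝ) / ((1000 : ℕ) : ℝ)) with h39 | h39
    · exact closeG39 hG39 (le_of_lt h38) h39
    rcases le_or_gt d (((10747 : ℕ) : ℝ) / ((1000 : ℕ) : ℝ)) with h40 | h40
    · exact closeG40 hG40 (le_of_lt h39) h40
    rcases le_or_gt d (((11284 : ℕ) : ℝ) / ((1000 : ℕ) : ℝ)) with h41 | h41
    · exact closeG41 hG41 (le_of_lt h40) h41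
    rcases le_or_gt d (((11848 : ℕ) : ℝ) / ((1000 : ℕ) : ℝ)) with h42 | h42
    · exact closeG42 hG42 (le_of_lt h41) h42
    rcases le_or_gt d (((12440 : ℕ) : ℝ) / ((1000 : ℕ) : ℝ)) with h43 | h43
    · exact closeG43 hG43 (le_of_lt h42) h43
    rcases le_or_gt d (((13062 : ℕ) : ℝ) / ((1000 : ℕ) : ℝ)) with h44 | h44
    · exact closeG44 hG44 (le_of_lt h43) h44
    rcases le_or_gt d (((13715 : ℕ) : ℝ) / ((1000 : ℕ) : ℝ)) with h45 | h45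
    · exact closeG45 hG45 (le_of_lt h44) h45
    rcases le_or_gt d (((14401 : ℕ) : ℝ) / ((1000 : ℕ) : ℝ)) with h46 | h46
    · exact closeG46 hG46 (le_of_lt h45) h46
    rcases le_or_gt d (((15121 : ℕ) : ℝ) / ((1000 : ℕ) : ℝ)) with h47 | h47
    · exact closeG47 hG47 (le_of_lt h46) h47
    rcases le_or_gt d (((16028 : ℕ) : ℝ) / ((1000 : ℕ) : ℝ)) with h48 | h48
    · exact closeG48 hG48 (le_of_lt h47) h48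
    rcases le_or_gt d (((16990 : ℕ) : ℝ) / ((1000 : ℕ) : ℝ)) with h49 | h49
    · exact closeG49 hG49 (le_of_lt h48) h49
    rcases le_or_gt d (((18009 : ℕ) : ℝ) / ((1000 : ℕ) : ℝ)) with h50 | h50
    · exact closeG50 hG50 (le_of_lt h49) h50
    rcases le_or_gt d (((19090 : ℕ) : ℝ) / ((1000 : ℕ) : ℝ)) with h51 | h51
    · exact closeG51 hG51 (le_of_lt h50) h51
    rcases le_or_gt d (((20617 : ℕ) : ℝ) / ((1000 : ℕ) : ℝ)) with h52 | h52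
    · exact closeG52 hG52 (le_of_lt h51) h52
    rcases le_or_gt d (((22266 : ℕ) : ℝ) / ((1000 : ℕ) : ℝ)) with h53 | h53
    · exact closeG53 hG53 (le_of_lt h52) h53
    rcases le_or_gt d (((24047 : ℕ) : ℝ) / ((1000 : ℕ) : ℝ)) with h54 | h54
    · exact closeG54 hG54 (le_of_lt h53) h54
    rcases le_or_gt d (((25971 : ℕ) : ℝ) / ((1000 : ℕ) : ℝ)) with h55 | h55
    · exact closeG55 hG55 (le_of_lt h54) h55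
    rcases le_or_gt d (((28049 : ℕ) : ℝ) / ((1000 : ℕ) : ℝ)) with h56 | h56
    · exact closeG56 hG56 (le_of_lt h55) h56
    rcases le_or_gt d (((30293 : ℕ) : ℝ) / ((1000 : ℕ) : ℝ)) with h57 | h57
    · exact closeG57 hG57 (le_of_lt h56) h57
    rcases le_or_gt d (((32716 : ℕ) : ℝ) / ((1000 : ℕ) : ℝ)) with h58 | h58
    · exact closeG58 hG58 (le_of_lt h57) h58
    exact closeG59 hG59 (le_of_lt h58) (by rw [show (((34300 : ℕ) : ℝ) / ((1000 : ℕ) : ℝ)) = 343 / 10 by norm_num]; exact hd')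

end Crest.Agent.PottsTree.CertQ3.T48.Cover

end
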