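import Crest.Agent.Lib.PottsTree.Tail48E

/-!
# The cover of `q = 3`, `λ < 0`: the cells and their closers

Generated.  For each regular degree `4 ≤ b ≤ 34` and each cell `[d1, d2]` of Poisson degrees covering
`[4, 343/10]` (here: the regular degrees): a `Cell` instance and the theorem which closes the case from one bound at one level.
-/

set_option linter.unusedVariables false
set_option linter.unusedSimpArgs false

noncomputable section

namespace Crest.Agent.PottsTree.CertQ3.T48.Cover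

open Filter
open Crest.Agent.PottsTree
open Crest.ProbabilityR.Broadcast

theorem cellR4 : Cell (1 / 2) (1 / 2) (((9422 : ℕ) : ℝ) / ((100000 : ℕ) : ℝ)) (165791 / 250000) (213443 / 200000) (54411 / 250000) (3867081 / 1000000) (4980337 / 1000000) := by
  constructor <;> norm_num [psi]

/-- regular degree `4` -/
theorem closeR4 {l0 : ℕ}
    (h0 : Pot (A 3) (regL 3 4 (-((1 : ℕ) : ℝ) / ((2 : ℕ) : ℝ)) l0) ≤ 2 * (((9422 : ℕ) : ℝ) / ((100000 : ℕ) : ℝ))) :
    Tendsto (advantage 3 4 (-(1 / Real.sqrt ((4 : ℕ) : ℝ)))) atTop (nhds 0) := by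
  rw [neg_div] at h0
  exact reg_closed (by norm_num) cellR4 (by norm_num) (by norm_num) (by norm_num) (by norm_num)
    (by norm_num) h0

theorem cellR5 : Cell (559 / 1250) (4473 / 10000) (((11076 : ℕ) : ℝ) / ((100000 : ℕ) : ℝ)) (629057 / 1000000) (1079793 / 1000000) (65991 / 250000) (3693441 / 1000000) (183291 / 40000) := by
  constructor <;> norm_num [psi]

/-- regular degree `5` -/
theorem closeR5 {l0 : ℕ}
    (h0 : Pot (A 3) (regL 3 5 (-((56 : ℕ) : ℝ) / ((125 : ℕ) : ℝ)) l0) ≤ 2 * (((11076 : ℕ) : ℝ) / ((100000 : ℕ) : ℝ))) :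
    Tendsto (advantage 3 5 (-(1 / Real.sqrt ((5 : ℕ) : ℝ)))) atTop (nhds 0) := by
  rw [neg_div] at h0
  exact reg_closed (by norm_num) cellR5 (by norm_num) (by norm_num) (by norm_num) (by norm_num)
    (by norm_num) h0

theorem cellR6 : Cell (2041 / 5000) (4083 / 10000) (((12541 : ℕ) : ℝ) / ((100000 : ℕ) : ℝ)) (75223 / 125000) (136391 / 125000) (305327 / 1000000) (900007 / 250000) (4342823 / 1000000) := by
  constructor <;> norm_num [psi]

/-- regular degree `6` -/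
theorem closeR6 {l0 : ℕ}
    (h0 : Pot (A 3) (regL 3 6 (-((409 : ℕ) : ℝ) / ((1000 : ℕ) : ℝ)) l0) ≤ 2 * (((12541 : ℕ) : ℝ) / ((100000 : ℕ) : ℝ))) :
    Tendsto (advantage 3 6 (-(1 / Real.sqrt ((6 : ℕ) : ℝ)))) atTop (nhds 0) := by
  rw [neg_div] at h0
  exact reg_closed (by norm_num) cellR6 (by norm_num) (by norm_num) (by norm_num) (by norm_num)
    (by norm_num) h0

theorem cellR7 : Cell (3779 / 10000) (189 / 500) (((13872 : ℕ) : ℝ) / ((100000 : ℕ) : ℝ)) (578979 / 1000000) (68849 / 62500) (171499 / 500000) (3546321 / 1000000) (2092341 / 500000) := by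
  constructor <;> norm_num [psi]

/-- regular degree `7` -/
theorem closeR7 {l0 : ℕ}
    (h0 : Pot (A 3) (regL 3 7 (-((189 : ℕ) : ℝ) / ((500 : ℕ) : ℝ)) l0) ≤ 2 * (((13872 : ℕ) : ℝ) / ((100000 : ℕ) : ℝ))) :
    Tendsto (advantage 3 7 (-(1 / Real.sqrt ((7 : ℕ) : ℝ)))) atTop (nhds 0) := by
  rw [neg_div] at h0
  exact reg_closed (by norm_num) cellR7 (by norm_num) (by norm_num) (by norm_num) (by norm_num)
    (by norm_num) h0

theorem cellR8 : Cell (707 / 2000) (221 / 625) (((15101 : ℕ) : ℝ) / ((100000 : ℕ) : ℝ)) (559367 / 1000000) (1111373 / 1000000) (377787 / 1000000) (3514829 / 1000000) (4073749 / 1000000) := by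
  constructor <;> norm_num [psi]

/-- regular degree `8` -/
theorem closeR8 {l0 : ℕ}
    (h0 : Pot (A 3) (regL 3 8 (-((177 : ℕ) : ℝ) / ((500 : ℕ) : ℝ)) l0) ≤ 2 * (((15101 : ℕ) : ℝ) / ((100000 : ℕ) : ℝ))) :
    Tendsto (advantage 3 8 (-(1 / Real.sqrt ((8 : ℕ) : ℝ)))) atTop (nhds 0) := by
  rw [neg_div] at h0
  exact reg_closed (by norm_num) cellR8 (by norm_num) (by norm_num) (by norm_num) (by norm_num)
    (by norm_num) h0

theorem cellR9 : Cell (1 / 3) (1 / 3) (((16250 : ℕ) : ℝ) / ((100000 : ℕ) : ℝ)) (542157 / 1000000) (1120641 / 1000000) (205137 / 500000) (3496631 / 1000000) (998071 / 250000) := by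
  constructor <;> norm_num [psi]

/-- regular degree `9` -/
theorem closeR9 {l0 : ℕ}
    (h0 : Pot (A 3) (regL 3 9 (-((167 : ℕ) : ℝ) / ((500 : ℕ) : ℝ)) l0) ≤ 2 * (((16250 : ℕ) : ℝ) / ((100000 : ℕ) : ℝ))) :
    Tendsto (advantage 3 9 (-(1 / Real.sqrt ((9 : ℕ) : ℝ)))) atTop (nhds 0) := by
  rw [neg_div] at h0
  exact reg_closed (by norm_num) cellR9 (by norm_num) (by norm_num) (by norm_num) (by norm_num)
    (by norm_num) h0

theorem cellR10 : Cell (1581 / 5000) (3163 / 10000) (((17334 : ℕ) : ℝ) / ((100000 : ℕ) : ℝ)) (526789 / 1000000) (1129487 / 1000000) (110237 / 250000) (108991 / 31250) (245723 / 62500) := by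
  constructor <;> norm_num [psi]

/-- regular degree `10` -/
theorem closeR10 {l0 : ℕ}
    (h0 : Pot (A 3) (regL 3 10 (-((317 : ℕ) : ℝ) / ((1000 : ℕ) : ℝ)) l0) ≤ 2 * (((17334 : ℕ) : ℝ) / ((100000 : ℕ) : ℝ))) :
    Tendsto (advantage 3 10 (-(1 / Real.sqrt ((10 : ℕ) : ℝ)))) atTop (nhds 0) := by
  rw [neg_div] at h0
  exact reg_closed (by norm_num) cellR10 (by norm_num) (by norm_num) (by norm_num) (by norm_num)
    (by norm_num) h0

theorem cellR11 : Cell (603 / 2000) (377 / 1250) (((18362 : ℕ) : ℝ) / ((100000 : ℕ) : ℝ)) (512963 / 1000000) (1137969 / 1000000) (18801 / 40000) (87113 / 25000) (3884709 / 1000000) := by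
  constructor <;> norm_num [psi]

/-- regular degree `11` -/
theorem closeR11 {l0 : ℕ}
    (h0 : Pot (A 3) (regL 3 11 (-((151 : ℕ) : ℝ) / ((500 : ℕ) : ℝ)) l0) ≤ 2 * (((18362 : ℕ) : ℝ) / ((100000 : ℕ) : ℝ))) :
    Tendsto (advantage 3 11 (-(1 / Real.sqrt ((11 : ℕ) : ℝ)))) atTop (nhds 0) := by
  rw [neg_div] at h0
  exact reg_closed (by norm_num) cellR11 (by norm_num) (by norm_num) (by norm_num) (by norm_num)
    (by norm_num) h0

theorem cellR12 : Cell (1443 / 5000) (2887 / 10000) (((19348 : ℕ) : ℝ) / ((100000 : ℕ) : ℝ)) (20013 / 40000) (286547 / 250000) (497941 / 1000000) (3485523 / 1000000) (3848001 / 1000000) := by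
  constructor <;> norm_num [psi]

/-- regular degree `12` -/
theorem closeR12 {l0 : ℕ}
    (h0 : Pot (A 3) (regL 3 12 (-((289 : ℕ) : ℝ) / ((1000 : ℕ) : ℝ)) l0) ≤ 2 * (((19348 : ℕ) : ℝ) / ((100000 : ℕ) : ℝ))) :
    Tendsto (advantage 3 12 (-(1 / Real.sqrt ((12 : ℕ) : ℝ)))) atTop (nhds 0) := by
  rw [neg_div] at h0
  exact reg_closed (by norm_num) cellR12 (by norm_num) (by norm_num) (by norm_num) (by norm_num)
    (by norm_num) h0

theorem cellR13 : Cell (2773 / 10000) (1387 / 5000) (((20284 : ℕ) : ℝ) / ((100000 : ℕ) : ℝ)) (61107 / 125000) (1154067 / 1000000) (524489 / 1000000) (1744753 / 500000) (1909673 / 500000) := by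
  constructor <;> norm_num [psi]

/-- regular degree `13` -/
theorem closeR13 {l0 : ℕ}
    (h0 : Pot (A 3) (regL 3 13 (-((139 : ℕ) : ℝ) / ((500 : ℕ) : ℝ)) l0) ≤ 2 * (((20284 : ℕ) : ℝ) / ((100000 : ℕ) : ℝ))) :
    Tendsto (advantage 3 13 (-(1 / Real.sqrt ((13 : ℕ) : ℝ)))) atTop (nhds 0) := by
  rw [neg_div] at h0
  exact reg_closed (by norm_num) cellR13 (by norm_num) (by norm_num) (by norm_num) (by norm_num)
    (by norm_num) h0

theorem cellR14 : Cell (167 / 625) (2673 / 10000) (((21185 : ℕ) : ℝ) / ((100000 : ℕ) : ℝ)) (7473 / 15625) (580861 / 500000) (275057 / 500000) (873931 / 250000) (949157 / 250000) := by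
  constructor <;> norm_num [psi]

/-- regular degree `14` -/
theorem closeR14 {l0 : ℕ}
    (h0 : Pot (A 3) (regL 3 14 (-((67 : ℕ) : ℝ) / ((250 : ℕ) : ℝ)) l0) ≤ 2 * (((21185 : ℕ) : ℝ) / ((100000 : ℕ) : ℝ))) :
    Tendsto (advantage 3 14 (-(1 / Real.sqrt ((14 : ℕ) : ℝ)))) atTop (nhds 0) := by
  rw [neg_div] at h0
  exact reg_closed (by norm_num) cellR14 (by norm_num) (by norm_num) (by norm_num) (by norm_num)
    (by norm_num) h0

theorem cellR15 : Cell (2581 / 10000) (1291 / 5000) (((22055 : ℕ) : ℝ) / ((100000 : ℕ) : ℝ)) (468449 / 1000000) (1169179 / 1000000) (574947 / 1000000) (175183 / 50000) (1889311 / 500000) := by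
  constructor <;> norm_num [psi]

/-- regular degree `15` -/
theorem closeR15 {l0 : ℕ}
    (h0 : Pot (A 3) (regL 3 15 (-((259 : ℕ) : ℝ) / ((1000 : ℕ) : ℝ)) l0) ≤ 2 * (((22055 : ℕ) : ℝ) / ((100000 : ℕ) : ℝ))) :
    Tendsto (advantage 3 15 (-(1 / Real.sqrt ((15 : ℕ) : ℝ)))) atTop (nhds 0) := by
  rw [neg_div] at h0
  exact reg_closed (by norm_num) cellR15 (by norm_num) (by norm_num) (by norm_num) (by norm_num)
    (by norm_num) h0

theorem cellR16 : Cell (1 / 4) (1 / 4) (((22890 : ℕ) : ℝ) / ((100000 : ℕ) : ℝ)) (459371 / 1000000) (1176397 / 1000000) (598857 / 1000000) (3512789 / 1000000) (3764471 / 1000000) := by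
  constructor <;> norm_num [psi]

/-- regular degree `16` -/
theorem closeR16 {l0 : ℕ}
    (h0 : Pot (A 3) (regL 3 16 (-((1 : ℕ) : ℝ) / ((4 : ℕ) : ℝ)) l0) ≤ 2 * (((22890 : ℕ) : ℝ) / ((100000 : ℕ) : ℝ))) :
    Tendsto (advantage 3 16 (-(1 / Real.sqrt ((16 : ℕ) : ℝ)))) atTop (nhds 0) := by
  rw [neg_div] at h0
  exact reg_closed (by norm_num) cellR16 (by norm_num) (by norm_num) (by norm_num) (by norm_num)
    (by norm_num) h0

theorem cellR17 : Cell (97 / 400) (1213 / 5000) (((23686 : ℕ) : ℝ) / ((100000 : ℕ) : ℝ)) (225513 / 500000) (295833 / 250000) (621821 / 1000000) (3522677 / 1000000) (938347 / 250000) := by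
  constructor <;> norm_num [psi]

/-- regular degree `17` -/
theorem closeR17 {l0 : ℕ}
    (h0 : Pot (A 3) (regL 3 17 (-((243 : ℕ) : ℝ) / ((1000 : ℕ) : ℝ)) l0) ≤ 2 * (((23686 : ℕ) : ℝ) / ((100000 : ℕ) : ℝ))) :
    Tendsto (advantage 3 17 (-(1 / Real.sqrt ((17 : ℕ) : ℝ)))) atTop (nhds 0) := by
  rw [neg_div] at h0
  exact reg_closed (by norm_num) cellR17 (by norm_num) (by norm_num) (by norm_num) (by norm_num)
    (by norm_num) h0

theorem cellR18 : Cell (2357 / 10000) (1179 / 5000) (((24460 : ℕ) : ℝ) / ((100000 : ℕ) : ℝ)) (55397 / 125000) (74383 / 62500) (322127 / 500000) (3533379 / 1000000) (1872401 / 500000) := by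
  constructor <;> norm_num [psi]

/-- regular degree `18` -/
theorem closeR18 {l0 : ℕ}
    (h0 : Pot (A 3) (regL 3 18 (-((59 : ℕ) : ℝ) / ((250 : ℕ) : ℝ)) l0) ≤ 2 * (((24460 : ℕ) : ℝ) / ((100000 : ℕ) : ℝ))) :
    Tendsto (advantage 3 18 (-(1 / Real.sqrt ((18 : ℕ) : ℝ)))) atTop (nhds 0) := by
  rw [neg_div] at h0
  exact reg_closed (by norm_num) cellR18 (by norm_num) (by norm_num) (by norm_num) (by norm_num)
    (by norm_num) h0

theorem cellR19 : Cell (1147 / 5000) (459 / 2000) (((25213 : ℕ) : ℝ) / ((100000 : ℕ) : ℝ)) (217893 / 500000) (299197 / 250000) (33311 / 50000) (3544639 / 1000000) (3738187 / 1000000) := by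
  constructor <;> norm_num [psi]

/-- regular degree `19` -/
theorem closeR19 {l0 : ℕ}
    (h0 : Pot (A 3) (regL 3 19 (-((23 : ℕ) : ℝ) / ((100 : ℕ) : ℝ)) l0) ≤ 2 * (((25213 : ℕ) : ℝ) / ((100000 : ℕ) : ℝ))) :
    Tendsto (advantage 3 19 (-(1 / Real.sqrt ((19 : ℕ) : ℝ)))) atTop (nhds 0) := by
  rw [neg_div] at h0
  exact reg_closed (by norm_num) cellR19 (by norm_num) (by norm_num) (by norm_num) (by norm_num)
    (by norm_num) h0

theorem cellR20 : Cell (559 / 2500) (2237 / 10000) (((25939 : ℕ) : ℝ) / ((100000 : ℕ) : ℝ)) (5361 / 12500) (240651 / 200000) (343773 / 500000) (3556229 / 1000000) (746659 / 200000) := by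
  constructor <;> norm_num [psi]

/-- regular degree `20` -/
theorem closeR20 {l0 : ℕ}
    (h0 : Pot (A 3) (regL 3 20 (-((28 : ℕ) : ℝ) / ((125 : ℕ) : ℝ)) l0) ≤ 2 * (((25939 : ℕ) : ℝ) / ((100000 : ℕ) : ℝ))) :
    Tendsto (advantage 3 20 (-(1 / Real.sqrt ((20 : ℕ) : ℝ)))) atTop (nhds 0) := by
  rw [neg_div] at h0
  exact reg_closed (by norm_num) cellR20 (by norm_num) (by norm_num) (by norm_num) (by norm_num)
    (by norm_num) h0

theorem cellR21 : Cell (1091 / 5000) (2183 / 10000) (((26646 : ℕ) : ℝ) / ((100000 : ℕ) : ℝ)) (8447 / 20000) (241919 / 200000) (708473 / 1000000) (178409 / 50000) (1864921 / 500000) := by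
  constructor <;> norm_num [psi]

/-- regular degree `21` -/
theorem closeR21 {l0 : ℕ}
    (h0 : Pot (A 3) (regL 3 21 (-((219 : ℕ) : ℝ) / ((1000 : ℕ) : ℝ)) l0) ≤ 2 * (((26646 : ℕ) : ℝ) / ((100000 : ℕ) : ℝ))) :
    Tendsto (advantage 3 21 (-(1 / Real.sqrt ((21 : ℕ) : ℝ)))) atTop (nhds 0) := by
  rw [neg_div] at h0
  exact reg_closed (by norm_num) cellR21 (by norm_num) (by norm_num) (by norm_num) (by norm_num)
    (by norm_num) h0

theorem cellR22 : Cell (533 / 2500) (2133 / 10000) (((27328 : ℕ) : ℝ) / ((100000 : ℕ) : ℝ)) (416229 / 1000000) (151969 / 125000) (728823 / 1000000) (895067 / 250000) (745523 / 200000) := by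
  constructor <;> norm_num [psi]

/-- regular degree `22` -/
theorem closeR22 {l0 : ℕ}
    (h0 : Pot (A 3) (regL 3 22 (-((107 : ℕ) : ℝ) / ((500 : ℕ) : ℝ)) l0) ≤ 2 * (((27328 : ℕ) : ℝ) / ((100000 : ℕ) : ℝ))) :
    Tendsto (advantage 3 22 (-(1 / Real.sqrt ((22 : ℕ) : ℝ)))) atTop (nhds 0) := by
  rw [neg_div] at h0
  exact reg_closed (by norm_num) cellR22 (by norm_num) (by norm_num) (by norm_num) (by norm_num)
    (by norm_num) h0

theorem cellR23 : Cell (417 / 2000) (1043 / 5000) (((27993 : ℕ) : ℝ) / ((100000 : ℕ) : ℝ)) (51303 / 125000) (1221793 / 1000000) (74883 / 100000) (359251 / 100000) (931591 / 250000) := by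
  constructor <;> norm_num [psi]

/-- regular degree `23` -/
theorem closeR23 {l0 : ℕ}
    (h0 : Pot (A 3) (regL 3 23 (-((209 : ℕ) : ℝ) / ((1000 : ℕ) : ℝ)) l0) ≤ 2 * (((27993 : ℕ) : ℝ) / ((100000 : ℕ) : ℝ))) :
    Tendsto (advantage 3 23 (-(1 / Real.sqrt ((23 : ℕ) : ℝ)))) atTop (nhds 0) := by
  rw [neg_div] at h0
  exact reg_closed (by norm_num) cellR23 (by norm_num) (by norm_num) (by norm_num) (by norm_num)
    (by norm_num) h0

theorem cellR24 : Cell (2041 / 10000) (1021 / 5000) (((28640 : ℕ) : ℝ) / ((100000 : ℕ) : ℝ)) (404921 / 1000000) (1227707 / 1000000) (76847 / 100000) (3604891 / 1000000) (372603 / 100000) := by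
  constructor <;> norm_num [psi]

/-- regular degree `24` -/
theorem closeR24 {l0 : ℕ}
    (h0 : Pot (A 3) (regL 3 24 (-((41 : ℕ) : ℝ) / ((200 : ℕ) : ℝ)) l0) ≤ 2 * (((28640 : ℕ) : ℝ) / ((100000 : ℕ) : ℝ))) :
    Tendsto (advantage 3 24 (-(1 / Real.sqrt ((24 : ℕ) : ℝ)))) atTop (nhds 0) := by
  rw [neg_div] at h0
  exact reg_closed (by norm_num) cellR24 (by norm_num) (by norm_num) (by norm_num) (by norm_num)
    (by norm_num) h0

theorem cellR25 : Cell (1 / 5) (1 / 5) (((29279 : ℕ) : ℝ) / ((100000 : ℕ) : ℝ)) (49953 / 125000) (1233583 / 1000000) (788013 / 1000000) (3617489 / 1000000) (3726449 / 1000000) := by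
  constructor <;> norm_num [psi]

/-- regular degree `25` -/
theorem closeR25 {l0 : ℕ}
    (h0 : Pot (A 3) (regL 3 25 (-((1 : ℕ) : ℝ) / ((5 : ℕ) : ℝ)) l0) ≤ 2 * (((29279 : ℕ) : ℝ) / ((100000 : ℕ) : ℝ))) :
    Tendsto (advantage 3 25 (-(1 / Real.sqrt ((25 : ℕ) : ℝ)))) atTop (nhds 0) := by
  rw [neg_div] at h0
  exact reg_closed (by norm_num) cellR25 (by norm_num) (by norm_num) (by norm_num) (by norm_num)
    (by norm_num) h0

theorem cellR26 : Cell (1961 / 10000) (981 / 5000) (((29875 : ℕ) : ℝ) / ((100000 : ℕ) : ℝ)) (98701 / 250000) (619547 / 500000) (806473 / 1000000) (1814789 / 500000) (1863721 / 500000) := by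
  constructor <;> norm_num [psi]

/-- regular degree `26` -/
theorem closeR26 {l0 : ℕ}
    (h0 : Pot (A 3) (regL 3 26 (-((197 : ℕ) : ℝ) / ((1000 : ℕ) : ℝ)) l0) ≤ 2 * (((29875 : ℕ) : ℝ) / ((100000 : ℕ) : ℝ))) :
    Tendsto (advantage 3 26 (-(1 / Real.sqrt ((26 : ℕ) : ℝ)))) atTop (nhds 0) := by
  rw [neg_div] at h0
  exact reg_closed (by norm_num) cellR26 (by norm_num) (by norm_num) (by norm_num) (by norm_num)
    (by norm_num) h0

theorem cellR27 : Cell (481 / 2500) (77 / 400) (((30474 : ℕ) : ℝ) / ((100000 : ℕ) : ℝ)) (390071 / 1000000) (155583 / 125000) (825171 / 1000000) (3642039 / 1000000) (46613 / 12500) := by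
  constructor <;> norm_num [psi]

/-- regular degree `27` -/
theorem closeR27 {l0 : ℕ}
    (h0 : Pot (A 3) (regL 3 27 (-((193 : ℕ) : ℝ) / ((1000 : ℕ) : ℝ)) l0) ≤ 2 * (((30474 : ℕ) : ℝ) / ((100000 : ℕ) : ℝ))) :
    Tendsto (advantage 3 27 (-(1 / Real.sqrt ((27 : ℕ) : ℝ)))) atTop (nhds 0) := by
  rw [neg_div] at h0
  exact reg_closed (by norm_num) cellR27 (by norm_num) (by norm_num) (by norm_num) (by norm_num)
    (by norm_num) h0

theorem cellR28 : Cell (1889 / 10000) (189 / 1000) (((31057 : ℕ) : ℝ) / ((100000 : ℕ) : ℝ)) (385569 / 1000000) (625057 / 500000) (210887 / 250000) (1827219 / 500000) (3731107 / 1000000) := by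
  constructor <;> norm_num [psi]

/-- regular degree `28` -/
theorem closeR28 {l0 : ℕ}
    (h0 : Pot (A 3) (regL 3 28 (-((189 : ℕ) : ℝ) / ((1000 : ℕ) : ℝ)) l0) ≤ 2 * (((31057 : ℕ) : ℝ) / ((100000 : ℕ) : ℝ))) :
    Tendsto (advantage 3 28 (-(1 / Real.sqrt ((28 : ℕ) : ℝ)))) atTop (nhds 0) := by
  rw [neg_div] at h0
  exact reg_closed (by norm_num) cellR28 (by norm_num) (by norm_num) (by norm_num) (by norm_num)
    (by norm_num) h0

theorem cellR29 : Cell (116 / 625) (1857 / 10000) (((31622 : ℕ) : ℝ) / ((100000 : ℕ) : ℝ)) (190651 / 500000) (19616 / 15625) (172307 / 200000) (916677 / 250000) (149343 / 40000) := by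
  constructor <;> norm_num [psi]

/-- regular degree `29` -/
theorem closeR29 {l0 : ℕ}
    (h0 : Pot (A 3) (regL 3 29 (-((93 : ℕ) : ℝ) / ((500 : ℕ) : ℝ)) l0) ≤ 2 * (((31622 : ℕ) : ℝ) / ((100000 : ℕ) : ℝ))) :
    Tendsto (advantage 3 29 (-(1 / Real.sqrt ((29 : ℕ) : ℝ)))) atTop (nhds 0) := by
  rw [neg_div] at h0
  exact reg_closed (by norm_num) cellR29 (by norm_num) (by norm_num) (by norm_num) (by norm_num)
    (by norm_num) h0

theorem cellR30 : Cell (73 / 400) (913 / 5000) (((32167 : ℕ) : ℝ) / ((100000 : ℕ) : ℝ)) (47159 / 125000) (1260571 / 1000000) (43953 / 50000) (3678773 / 1000000) (3736369 / 1000000) := by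
  constructor <;> norm_num [psi]

/-- regular degree `30` -/
theorem closeR30 {l0 : ℕ}
    (h0 : Pot (A 3) (regL 3 30 (-((183 : ℕ) : ℝ) / ((1000 : ℕ) : ℝ)) l0) ≤ 2 * (((32167 : ℕ) : ℝ) / ((100000 : ℕ) : ℝ))) :
    Tendsto (advantage 3 30 (-(1 / Real.sqrt ((30 : ℕ) : ℝ)))) atTop (nhds 0) := by
  rw [neg_div] at h0
  exact reg_closed (by norm_num) cellR30 (by norm_num) (by norm_num) (by norm_num) (by norm_num)
    (by norm_num) h0

theorem cellR31 : Cell (449 / 2500) (1797 / 10000) (((32689 : ℕ) : ℝ) / ((100000 : ℕ) : ℝ)) (373489 / 1000000) (50621 / 40000) (896013 / 1000000) (3690521 / 1000000) (934849 / 250000) := by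
  constructor <;> norm_num [psi]

/-- regular degree `31` -/
theorem closeR31 {l0 : ℕ}
    (h0 : Pot (A 3) (regL 3 31 (-((9 : ℕ) : ℝ) / ((50 : ℕ) : ℝ)) l0) ≤ 2 * (((32689 : ℕ) : ℝ) / ((100000 : ℕ) : ℝ))) :
    Tendsto (advantage 3 31 (-(1 / Real.sqrt ((31 : ℕ) : ℝ)))) atTop (nhds 0) := by
  rw [neg_div] at h0
  exact reg_closed (by norm_num) cellR31 (by norm_num) (by norm_num) (by norm_num) (by norm_num)
    (by norm_num) h0

theorem cellR32 : Cell (1767 / 10000) (221 / 1250) (((33224 : ℕ) : ℝ) / ((100000 : ℕ) : ℝ)) (46211 / 125000) (635313 / 500000) (456783 / 500000) (3702767 / 1000000) (1871427 / 500000) := by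
  constructor <;> norm_num [psi]

/-- regular degree `32` -/
theorem closeR32 {l0 : ℕ}
    (h0 : Pot (A 3) (regL 3 32 (-((177 : ℕ) : ℝ) / ((1000 : ℕ) : ℝ)) l0) ≤ 2 * (((33224 : ℕ) : ℝ) / ((100000 : ℕ) : ℝ))) :
    Tendsto (advantage 3 32 (-(1 / Real.sqrt ((32 : ℕ) : ℝ)))) atTop (nhds 0) := by
  rw [neg_div] at h0
  exact reg_closed (by norm_num) cellR32 (by norm_num) (by norm_num) (by norm_num) (by norm_num)
    (by norm_num) h0

theorem cellR33 : Cell (87 / 500) (1741 / 10000) (((33733 : ℕ) : ℝ) / ((100000 : ℕ) : ℝ)) (183071 / 500000) (637751 / 500000) (930437 / 1000000) (1857291 / 500000) (3746443 / 1000000) := by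
  constructor <;> norm_num [psi]

/-- regular degree `33` -/
theorem closeR33 {l0 : ℕ}
    (h0 : Pot (A 3) (regL 3 33 (-((7 : ℕ) : ℝ) / ((40 : ℕ) : ℝ)) l0) ≤ 2 * (((33733 : ℕ) : ℝ) / ((100000 : ℕ) : ℝ))) :
    Tendsto (advantage 3 33 (-(1 / Real.sqrt ((33 : ℕ) : ℝ)))) atTop (nhds 0) := by
  rw [neg_div] at h0
  exact reg_closed (by norm_num) cellR33 (by norm_num) (by norm_num) (by norm_num) (by norm_num)
    (by norm_num) h0

theorem cellR34 : Cell (857 / 5000) (343 / 2000) (((34235 : ℕ) : ℝ) / ((100000 : ℕ) : ℝ)) (90677 / 250000) (1280333 / 1000000) (236813 / 250000) (149057 / 40000) (937573 / 250000) := by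
  constructor <;> norm_num [psi]

/-- regular degree `34` -/
theorem closeR34 {l0 : ℕ}
    (h0 : Pot (A 3) (regL 3 34 (-((43 : ℕ) : ℝ) / ((250 : ℕ) : ℝ)) l0) ≤ 2 * (((34235 : ℕ) : ℝ) / ((100000 : ℕ) : ℝ))) :
    Tendsto (advantage 3 34 (-(1 / Real.sqrt ((34 : ℕ) : ℝ)))) atTop (nhds 0) := by
  rw [neg_div] at h0
  exact reg_closed (by norm_num) cellR34 (by norm_num) (by norm_num) (by norm_num) (by norm_num)
    (by norm_num) h0


end Crest.Agent.PottsTree.CertQ3.T48.Cover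

end
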